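import Mathlib

/-! Reflexivity of real normed spaces: basic permanence properties. -/

open NormedSpace

namespace Vale.Agent.P069

/-- A real normed space is reflexive if the canonical map into the bidual is onto. -/
def IsReflexive (E : Type*) [NormedAddCommGroup E] [NormedSpace ℝ E] : Prop :=
  Function.Surjective (inclusionInDoubleDual ℝ E)

theorem isReflexive_hilbert (H : Type*) [NormedAddCommGroup H] [InnerProductSpace ℝ H]
    [CompleteSpace H] : IsReflexive H := by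
  intro Φ
  -- the functional `h ↦ Φ (⟨h, ·⟩)` on `H`
  let L : H →L[ℝ] StrongDual ℝ H := innerSL ℝ
  let ψ : StrongDual ℝ H := Φ.comp L
  refine ⟨(InnerProductSpace.toDual ℝ H).symm ψ, ?_⟩
  ext g
  rw [dual_def]
  obtain ⟨h, rfl⟩ := (InnerProductSpace.toDual ℝ H).surjective g
  have h1 : ψ h = inner ℝ ((InnerProductSpace.toDual ℝ H).symm ψ) h := by
    rw [InnerProductSpace.toDual_symm_apply]
  have h2 : ψ h = Φ (InnerProductSpace.toDual ℝ H h) := rfl
  rw [← h2, h1, InnerProductSpace.toDual_apply_apply, real_inner_comm]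

theorem IsReflexive.retract {E F : Type*} [NormedAddCommGroup E] [NormedSpace ℝ E]
    [NormedAddCommGroup F] [NormedSpace ℝ F] (hF : IsReflexive F)
    (i : E →L[ℝ] F) (r : F →L[ℝ] E) (hri : ∀ x, r (i x) = x) : IsReflexive E := by
  intro Φ
  let P : StrongDual ℝ F →L[ℝ] StrongDual ℝ E :=
    (ContinuousLinearMap.compL ℝ E F ℝ).flip i
  obtain ⟨h, hh⟩ := hF (Φ.comp P)
  refine ⟨r h, ?_⟩
  ext g
  rw [dual_def]
  have h1 : (g.comp r) h = Φ (P (g.comp r)) := by
    rw [← dual_def ℝ F h (g.comp r), hh]; rfl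
  have h2 : P (g.comp r) = g := by
    ext x
    simp [P, hri]
  rw [h2] at h1
  exact h1

theorem IsReflexive.dual {E : Type*} [NormedAddCommGroup E] [NormedSpace ℝ E]
    (hE : IsReflexive E) : IsReflexive (StrongDual ℝ E) := by
  intro Φ
  refine ⟨Φ.comp (inclusionInDoubleDual ℝ E), ?_⟩
  ext g
  obtain ⟨z, rfl⟩ := hE g
  rw [dual_def, dual_def]
  rfl

section lp2

variable {ι : Type*} [DecidableEq ι] {E : ι → Type*} [∀ i, NormedAddCommGroup (E i)]
  [∀ i, NormedSpace ℝ (E i)]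

theorem norm_sum_single_sq (f : ∀ i, E i) (s : Finset ι) :
    ‖∑ i ∈ s, lp.single (2 : ENNReal) i (f i)‖ ^ 2 = ∑ i ∈ s, ‖f i‖ ^ 2 := by
  have h := lp.norm_sum_single (E := E) (p := 2) (by norm_num) f s
  simpa using h

theorem norm_sq_eq_tsum (f : lp E 2) : ‖f‖ ^ 2 = ∑' i, ‖f i‖ ^ 2 := by
  have h := lp.norm_rpow_eq_tsum (E := E) (p := 2) (by norm_num) f
  simpa using h

theorem summable_norm_sq (f : lp E 2) : Summable fun i => ‖f i‖ ^ 2 := by
  have h := (lp.memℓp f).summable (p := 2) (by norm_num)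
  simpa using h

theorem hasSum_norm_sq (f : lp E 2) : HasSum (fun i => ‖f i‖ ^ 2) (‖f‖ ^ 2) := by
  rw [norm_sq_eq_tsum]; exact (summable_norm_sq f).hasSum

theorem sum_norm_sq_le (f : lp E 2) (s : Finset ι) : ∑ i ∈ s, ‖f i‖ ^ 2 ≤ ‖f‖ ^ 2 := by
  rw [norm_sq_eq_tsum]
  exact (summable_norm_sq f).sum_le_tsum s (fun i _ => sq_nonneg _)

/-- Tails of a continuous functional on an `ℓ²`-sum are small. -/
theorem exists_tail_small (ψ : StrongDual ℝ (lp E 2)) {ε : ℝ} (hε : 0 < ε) :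
    ∃ s : Finset ι, ∀ w : lp E 2, (∀ i ∈ s, w i = 0) → |ψ w| ≤ ε * ‖w‖ := by
  classical
  -- choose an almost norming vector
  set M : ℝ := ‖ψ‖ + 1 with hM
  have hMpos : 0 < M := by positivity
  -- parameters
  set l : ℝ := ε / (2 * M) with hl
  have hlpos : 0 < l := by positivity
  set δ : ℝ := ε * l / 4 with hδ
  have hδpos : 0 < δ := by positivity
  obtain ⟨c, hc1, hc2⟩ : ∃ c : lp E 2, ‖c‖ ≤ 1 ∧ ‖ψ‖ - δ ≤ ψ c := by
    by_cases h0 : ‖ψ‖ - δ ≤ 0
    · exact ⟨0, by simp, by simpa using h0⟩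
    · push Not at h0
      obtain ⟨x, hx1, hx2⟩ := ψ.exists_lt_apply_of_lt_opNorm (r := ‖ψ‖ - δ) (by linarith)
      rcases le_or_gt 0 (ψ x) with hs | hs
      · refine ⟨x, hx1.le, ?_⟩
        rw [Real.norm_eq_abs, abs_of_nonneg hs] at hx2
        exact hx2.le
      · refine ⟨-x, by simpa using hx1.le, ?_⟩
        rw [Real.norm_eq_abs, abs_of_neg hs] at hx2
        simpa using hx2.le
  -- truncate it
  have hsum := lp.hasSum_single (E := E) (p := 2) (by norm_num) c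
  have hψsum : HasSum (fun i => ψ (lp.single 2 i (c i))) (ψ c) := hsum.mapL ψ
  have hev : ∀ᶠ s : Finset ι in Filter.atTop, ψ c - δ < ∑ i ∈ s, ψ (lp.single 2 i (c i)) :=
    (tendsto_order.1 hψsum).1 _ (by linarith)
  obtain ⟨s, hs⟩ := hev.exists
  refine ⟨s, ?_⟩
  set u : lp E 2 := ∑ i ∈ s, lp.single 2 i (c i) with hu
  have hψu : ‖ψ‖ - 2 * δ ≤ ψ u := by
    have : ψ u = ∑ i ∈ s, ψ (lp.single 2 i (c i)) := by rw [hu, map_sum]
    rw [this]; linarith
  have hunorm : ‖u‖ ^ 2 ≤ 1 := by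
    rw [hu, norm_sum_single_sq]
    calc ∑ i ∈ s, ‖c i‖ ^ 2 ≤ ‖c‖ ^ 2 := sum_norm_sq_le c s
      _ ≤ 1 := by
        have := norm_nonneg c
        nlinarith
  -- one-sided estimate for normalized tails
  have key : ∀ w : lp E 2, (∀ i ∈ s, w i = 0) → ‖w‖ ≤ 1 → ψ w ≤ ε := by
    intro w hw hw1
    have huw : ‖u + l • w‖ ^ 2 ≤ 1 + l ^ 2 := by
      rw [norm_sq_eq_tsum]
      have hterm : ∀ i, ‖(u + l • w) i‖ ^ 2 = ‖u i‖ ^ 2 + l ^ 2 * ‖w i‖ ^ 2 := by
        intro i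
        by_cases hi : i ∈ s
        · have : w i = 0 := hw i hi
          simp only [lp.coeFn_add, lp.coeFn_smul, Pi.add_apply, Pi.smul_apply, this, smul_zero,
            add_zero, norm_zero]
          ring
        · have : u i = 0 := by
            rw [hu]
            simp only [lp.coeFn_sum, Finset.sum_apply, lp.single_apply]
            refine Finset.sum_eq_zero ?_
            intro j hj
            have : i ≠ j := fun h => hi (h ▸ hj)
            exact Pi.single_eq_of_ne this _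
          simp only [lp.coeFn_add, lp.coeFn_smul, Pi.add_apply, Pi.smul_apply, this, zero_add,
            norm_smul, norm_zero]
          rw [mul_pow, Real.norm_eq_abs, sq_abs]
          ring
      simp_rw [hterm]
      rw [Summable.tsum_add (summable_norm_sq u) ((summable_norm_sq w).mul_left _), tsum_mul_left,
        ← norm_sq_eq_tsum, ← norm_sq_eq_tsum]
      have h2 : ‖w‖ ^ 2 ≤ 1 := by
        have := norm_nonneg w
        nlinarith
      have h3 : l ^ 2 * ‖w‖ ^ 2 ≤ l ^ 2 := by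
        have := sq_nonneg l
        nlinarith
      linarith
    have hnorm : ‖u + l • w‖ ≤ 1 + l ^ 2 := by
      have h0 := norm_nonneg (u + l • w)
      have : (1 + l ^ 2) ≤ (1 + l ^ 2) ^ 2 := by nlinarith [sq_nonneg l]
      by_contra hcon
      push Not at hcon
      nlinarith [sq_nonneg l]
    have h1 : ψ (u + l • w) ≤ ‖ψ‖ * (1 + l ^ 2) := by
      calc ψ (u + l • w) ≤ ‖ψ (u + l • w)‖ := Real.le_norm_self _
        _ ≤ ‖ψ‖ * ‖u + l • w‖ := ψ.le_opNorm _
        _ ≤ ‖ψ‖ * (1 + l ^ 2) := by gcongr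
    rw [map_add, map_smul, smul_eq_mul] at h1
    have h2 : l * ψ w ≤ 2 * δ + ‖ψ‖ * l ^ 2 := by linarith
    have h3 : ‖ψ‖ * l ^ 2 ≤ l * (ε / 2) := by
      have : ‖ψ‖ * l ≤ ε / 2 := by
        rw [hl]
        have h4 : ‖ψ‖ ≤ M := by linarith
        calc ‖ψ‖ * (ε / (2 * M)) ≤ M * (ε / (2 * M)) := by gcongr
          _ = ε / 2 := by field_simp
      nlinarith
    have h5 : l * ψ w ≤ l * ε := by
      calc l * ψ w ≤ 2 * δ + ‖ψ‖ * l ^ 2 := h2
        _ ≤ 2 * δ + l * (ε / 2) := by linarith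
        _ = l * ε := by rw [hδ]; ring
    exact le_of_mul_le_mul_left h5 hlpos
  intro w hw
  by_cases hw0 : w = 0
  · simp [hw0]
  have hwpos : 0 < ‖w‖ := norm_pos_iff.2 hw0
  have hscaled : ∀ σ : ℝ, |σ| = 1 → σ * ψ w ≤ ε * ‖w‖ := by
    intro σ hσ
    have h1 := key ((σ * ‖w‖⁻¹) • w) (by
      intro i hi
      simp [lp.coeFn_smul, hw i hi]) (by
      rw [norm_smul, norm_mul, Real.norm_eq_abs, hσ, norm_inv, norm_norm, one_mul,
        inv_mul_cancel₀ hwpos.ne'])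
    rw [map_smul, smul_eq_mul] at h1
    have h2 : σ * ‖w‖⁻¹ * ψ w * ‖w‖ = σ * ψ w := by
      field_simp
    calc σ * ψ w = σ * ‖w‖⁻¹ * ψ w * ‖w‖ := h2.symm
      _ ≤ ε * ‖w‖ := by gcongr
  rw [abs_le]
  constructor
  · have := hscaled (-1) (by simp)
    linarith
  · have := hscaled 1 (by simp)
    linarith

/-- An `ℓ²`-sum of reflexive spaces is reflexive. -/
theorem isReflexive_lp2 (hE : ∀ i, IsReflexive (E i)) : IsReflexive (lp E 2) := by
  classical
  intro Φ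
  -- the coordinate projections as functionals maps
  let ev : ∀ i, lp E 2 →L[ℝ] E i := fun i =>
    LinearMap.mkContinuous
      { toFun := fun f => f i
        map_add' := fun f g => by simp [lp.coeFn_add]
        map_smul' := fun a f => by simp [lp.coeFn_smul] } 1
      (fun f => by rw [one_mul]; exact lp.norm_apply_le_norm (by norm_num) f i)
  let P : ∀ i, StrongDual ℝ (E i) →L[ℝ] StrongDual ℝ (lp E 2) := fun i =>
    (ContinuousLinearMap.compL ℝ (lp E 2) (E i) ℝ).flip (ev i)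
  choose x hx using fun i => hE i (Φ.comp (P i))
  have hx' : ∀ i (g : StrongDual ℝ (E i)), g (x i) = Φ (P i g) := by
    intro i g
    rw [← dual_def ℝ (E i) (x i) g, hx i]; rfl
  -- square summability
  have hbound : ∀ s : Finset ι, ∑ i ∈ s, ‖x i‖ ^ 2 ≤ ‖Φ‖ ^ 2 := by
    intro s
    have hg : ∀ i, ∃ g : StrongDual ℝ (E i), ‖g‖ ≤ 1 ∧ g (x i) = ‖x i‖ := by
      intro i
      by_cases h0 : ‖x i‖ = 0
      · exact ⟨0, by simp, by simp [h0]⟩
      · obtain ⟨g, hg1, hg2⟩ := exists_dual_vector ℝ (x i) h0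
        exact ⟨g, hg1.le, by simpa using hg2⟩
    choose g hg1 hg2 using hg
    set Ψ : StrongDual ℝ (lp E 2) := ∑ i ∈ s, ‖x i‖ • P i (g i) with hΨ
    set S : ℝ := ∑ i ∈ s, ‖x i‖ ^ 2 with hS
    have hSnn : 0 ≤ S := Finset.sum_nonneg fun i _ => sq_nonneg _
    have h1 : Φ Ψ = S := by
      rw [hΨ, map_sum, hS]
      refine Finset.sum_congr rfl fun i _ => ?_
      rw [map_smul, ← hx' i, hg2 i, smul_eq_mul, sq]
    have h2 : ‖Ψ‖ ≤ Real.sqrt S := by
      refine ContinuousLinearMap.opNorm_le_bound _ (Real.sqrt_nonneg _) ?_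
      intro f
      have h3 : Ψ f = ∑ i ∈ s, ‖x i‖ * g i (f i) := by
        rw [hΨ]
        simp only [FunLike.coe_sum, Finset.sum_apply, FunLike.coe_smul,
          Pi.smul_apply, smul_eq_mul]
        rfl
      rw [h3, Real.norm_eq_abs]
      calc |∑ i ∈ s, ‖x i‖ * g i (f i)| ≤ ∑ i ∈ s, |‖x i‖ * g i (f i)| :=
            Finset.abs_sum_le_sum_abs _ _
        _ ≤ ∑ i ∈ s, ‖x i‖ * ‖f i‖ := by
            refine Finset.sum_le_sum fun i _ => ?_
            rw [abs_mul, abs_norm]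
            gcongr
            calc |g i (f i)| = ‖g i (f i)‖ := (Real.norm_eq_abs _).symm
              _ ≤ ‖g i‖ * ‖f i‖ := (g i).le_opNorm _
              _ ≤ 1 * ‖f i‖ := by gcongr; exact hg1 i
              _ = ‖f i‖ := one_mul _
        _ ≤ Real.sqrt (∑ i ∈ s, ‖x i‖ ^ 2) * Real.sqrt (∑ i ∈ s, ‖f i‖ ^ 2) :=
            Real.sum_mul_le_sqrt_mul_sqrt _ _ _
        _ ≤ Real.sqrt S * ‖f‖ := by
            gcongr
            rw [Real.sqrt_le_left (norm_nonneg _)]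
            exact sum_norm_sq_le f s
    have h4 : S ≤ ‖Φ‖ * Real.sqrt S := by
      calc S = Φ Ψ := h1.symm
        _ ≤ ‖Φ Ψ‖ := Real.le_norm_self _
        _ ≤ ‖Φ‖ * ‖Ψ‖ := Φ.le_opNorm _
        _ ≤ ‖Φ‖ * Real.sqrt S := by gcongr
    by_cases hS0 : S = 0
    · rw [hS0]; positivity
    · have hSpos : 0 < S := lt_of_le_of_ne hSnn (Ne.symm hS0)
      have hsq : Real.sqrt S * Real.sqrt S = S := Real.mul_self_sqrt hSnn
      have hsqpos : 0 < Real.sqrt S := Real.sqrt_pos.2 hSpos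
      have h5 : Real.sqrt S ≤ ‖Φ‖ := by
        have : Real.sqrt S * Real.sqrt S ≤ ‖Φ‖ * Real.sqrt S := by rw [hsq]; exact h4
        exact le_of_mul_le_mul_right this hsqpos
      calc S = Real.sqrt S * Real.sqrt S := hsq.symm
        _ ≤ ‖Φ‖ * ‖Φ‖ := by gcongr
        _ = ‖Φ‖ ^ 2 := by ring
  have hsum : Summable fun i => ‖x i‖ ^ 2 :=
    summable_of_sum_le (fun i => sq_nonneg _) hbound
  have hmem : Memℓp x 2 := by
    rw [memℓp_gen_iff (by norm_num)]
    simpa using hsum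
  let X : lp E 2 := ⟨x, hmem⟩
  refine ⟨X, ?_⟩
  ext ψ
  rw [dual_def]
  -- approximate `ψ` by finite sums
  have happrox : ∀ ε > 0, |ψ X - Φ ψ| ≤ ε * (‖X‖ + ‖Φ‖) := by
    intro ε hε
    obtain ⟨s, hs⟩ := exists_tail_small ψ hε
    let ψi : ∀ i, StrongDual ℝ (E i) := fun i =>
      ψ.comp (lp.singleContinuousLinearMap ℝ E 2 i)
    set Ψ : StrongDual ℝ (lp E 2) := ∑ i ∈ s, P i (ψi i) with hΨ
    have hΨf : ∀ f : lp E 2, Ψ f = ψ (∑ i ∈ s, lp.single 2 i (f i)) := by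
      intro f
      rw [hΨ, map_sum]
      simp only [FunLike.coe_sum, Finset.sum_apply]
      rfl
    have hdiff : ∀ f : lp E 2, |ψ f - Ψ f| ≤ ε * ‖f‖ := by
      intro f
      rw [hΨf, ← map_sub]
      have h1 := hs (f - ∑ i ∈ s, lp.single 2 i (f i)) (by
        intro i hi
        simp only [lp.coeFn_sub, lp.coeFn_sum, Pi.sub_apply, Finset.sum_apply, lp.single_apply]
        rw [Finset.sum_eq_single i]
        · simp
        · intro j _ hj
          exact Pi.single_eq_of_ne hj.symm _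
        · intro h; exact absurd hi h)
      refine h1.trans ?_
      gcongr
      have h2 := lp.norm_compl_sum_single (E := E) (p := 2) (by norm_num) f s
      have h3 : ‖f - ∑ i ∈ s, lp.single 2 i (f i)‖ ^ 2 ≤ ‖f‖ ^ 2 := by
        have h4 : ‖f - ∑ i ∈ s, lp.single 2 i (f i)‖ ^ 2 = ‖f‖ ^ 2 - ∑ i ∈ s, ‖f i‖ ^ 2 := by
          simpa using h2
        rw [h4]
        have : 0 ≤ ∑ i ∈ s, ‖f i‖ ^ 2 := Finset.sum_nonneg fun i _ => sq_nonneg _
        linarith
      exact le_of_sq_le_sq h3 (norm_nonneg _)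
    have hnorm : ‖ψ - Ψ‖ ≤ ε :=
      ContinuousLinearMap.opNorm_le_bound _ hε.le fun f => by
        simpa using hdiff f
    have h5 : Ψ X = Φ Ψ := by
      rw [hΨ, map_sum]
      simp only [FunLike.coe_sum, Finset.sum_apply]
      refine Finset.sum_congr rfl fun i _ => ?_
      rw [← hx' i]; rfl
    have h6 : ψ X - Φ ψ = (ψ - Ψ) X - Φ (ψ - Ψ) := by
      rw [map_sub, sub_apply, h5]; ring
    rw [h6]
    calc |(ψ - Ψ) X - Φ (ψ - Ψ)| ≤ |(ψ - Ψ) X| + |Φ (ψ - Ψ)| := abs_sub _ _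
      _ ≤ ‖ψ - Ψ‖ * ‖X‖ + ‖Φ‖ * ‖ψ - Ψ‖ := by
          gcongr
          · exact (ψ - Ψ).le_opNorm X
          · exact Φ.le_opNorm _
      _ ≤ ε * ‖X‖ + ‖Φ‖ * ε := by gcongr
      _ = ε * (‖X‖ + ‖Φ‖) := by ring
  have hzero : |ψ X - Φ ψ| ≤ 0 := by
    refine le_of_forall_pos_le_add fun η hη => ?_
    have hpos : 0 < ‖X‖ + ‖Φ‖ + 1 := by positivity
    have := happrox (η / (‖X‖ + ‖Φ‖ + 1)) (by positivity)
    refine this.trans ?_
    rw [zero_add, div_mul_eq_mul_div, div_le_iff₀ hpos]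
    nlinarith [norm_nonneg X, norm_nonneg Φ]
  have := abs_nonpos_iff.1 hzero
  linarith

end lp2

end Vale.Agent.P069
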