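import Mathlib
import Vale.Agent.P069.Refl

/-! The tree spaces `Y n`, their `ℓ²`-sum `Z` and the dual `X` of `Z`. -/

open NormedSpace
open scoped ENNReal

namespace Vale.Agent.P069

/-- Sum of `c` along the branch from the root `[]` to the node `l`; the children of `l` are the
nodes `a :: l`. -/
def psum (c : List ℕ → ℝ) : List ℕ → ℝ
  | [] => c []
  | (a :: l) => c (a :: l) + psum c l

theorem psum_add (c d : List ℕ → ℝ) (l : List ℕ) : psum (c + d) l = psum c l + psum d l := by
  induction l with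
  | nil => simp [psum]
  | cons a l ih => simp only [psum, Pi.add_apply, ih]; ring

theorem psum_smul (r : ℝ) (c : List ℕ → ℝ) (l : List ℕ) : psum (r • c) l = r * psum c l := by
  induction l with
  | nil => simp [psum]
  | cons a l ih => simp only [psum, Pi.smul_apply, ih, smul_eq_mul]; ring

theorem psum_sub (c d : List ℕ → ℝ) (l : List ℕ) : psum (c - d) l = psum c l - psum d l := by
  induction l with
  | nil => simp [psum]
  | cons a l ih => simp only [psum, Pi.sub_apply, ih]; ring

/-- The Hilbert space of square summable functions on the tree. -/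
abbrev H : Type := lp (fun _ : List ℕ => ℝ) 2

theorem abs_apply_le (c : H) (l : List ℕ) : |c l| ≤ ‖c‖ := by
  have := lp.norm_apply_le_norm (p := 2) (by norm_num) c l
  simpa using this

theorem abs_psum_le (c : H) (l : List ℕ) : |psum c l| ≤ (l.length + 1) * ‖c‖ := by
  induction l with
  | nil => simpa [psum] using abs_apply_le c []
  | cons a l ih =>
    simp only [psum, List.length_cons, Nat.cast_add, Nat.cast_one]
    calc |c (a :: l) + psum c l| ≤ |c (a :: l)| + |psum c l| := abs_add_le _ _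
      _ ≤ ‖c‖ + (l.length + 1) * ‖c‖ := by
          gcongr
          exact abs_apply_le c _
      _ = (l.length + 1 + 1) * ‖c‖ := by ring

/-- Bounded functions on the tree. -/
abbrev Linf : Type := lp (fun _ : List ℕ => ℝ) ∞

/-- The bounded function of path sums up to level `n`. -/
noncomputable def pathMap (n : ℕ) : H →ₗ[ℝ] Linf where
  toFun c := ⟨fun l => if l.length ≤ n then psum c l else 0, by
    apply memℓp_infty
    refine ⟨(n + 1) * ‖c‖, ?_⟩
    rintro _ ⟨l, rfl⟩
    by_cases h : l.length ≤ n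
    · simp only [h, if_true, Real.norm_eq_abs]
      refine (abs_psum_le c l).trans ?_
      have : (l.length : ℝ) ≤ n := by exact_mod_cast h
      gcongr
    · simp only [h, if_false, norm_zero]
      positivity⟩
  map_add' c d := by
    ext l
    simp only [lp.coeFn_add, Pi.add_apply]
    split_ifs
    · exact psum_add _ _ _
    · simp
  map_smul' r c := by
    ext l
    simp only [lp.coeFn_smul, Pi.smul_apply, RingHom.id_apply, smul_eq_mul]
    split_ifs
    · exact psum_smul _ _ _
    · simp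

/-- The space `Y n`: square summable functions on the tree, with the norm
`max (‖c‖₂) (sup over nodes l of level at most n of |psum c l|)`. -/
def Y (_n : ℕ) : Type := H

noncomputable instance (n : ℕ) : AddCommGroup (Y n) := inferInstanceAs (AddCommGroup H)
noncomputable instance (n : ℕ) : Module ℝ (Y n) := inferInstanceAs (Module ℝ H)

/-- The embedding of `Y n` that induces its norm. -/
noncomputable def toProd (n : ℕ) : Y n →ₗ[ℝ] H × Linf :=
  LinearMap.prod (LinearMap.id : H →ₗ[ℝ] H) (pathMap n)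

theorem toProd_injective (n : ℕ) : Function.Injective (toProd n) := by
  intro c d h
  exact congrArg Prod.fst h

noncomputable instance (n : ℕ) : NormedAddCommGroup (Y n) :=
  NormedAddCommGroup.induced (Y n) (H × Linf) (toProd n) (toProd_injective n)

noncomputable instance (n : ℕ) : NormedSpace ℝ (Y n) :=
  NormedSpace.induced ℝ (Y n) (H × Linf) (toProd n)

/-- The identity from `Y n` to `H`. -/
noncomputable def toH {n : ℕ} : Y n →ₗ[ℝ] H := LinearMap.id

/-- The identity from `H` to `Y n`. -/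
noncomputable def ofH (n : ℕ) : H →ₗ[ℝ] Y n := LinearMap.id

@[simp] theorem toH_ofH {n : ℕ} (c : H) : toH (ofH n c) = c := rfl
@[simp] theorem ofH_toH {n : ℕ} (c : Y n) : ofH n (toH c) = c := rfl

theorem norm_Y {n : ℕ} (c : Y n) : ‖c‖ = max ‖toH c‖ ‖pathMap n (toH c)‖ := rfl

theorem norm_toH_le {n : ℕ} (c : Y n) : ‖toH c‖ ≤ ‖c‖ := by
  rw [norm_Y]; exact le_max_left _ _

theorem abs_psum_le_norm {n : ℕ} (c : Y n) (l : List ℕ) (hl : l.length ≤ n) :
    |psum (toH c) l| ≤ ‖c‖ := by
  rw [norm_Y]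
  refine le_trans ?_ (le_max_right _ _)
  have h := lp.norm_apply_le_norm (p := ∞) (by norm_num) (pathMap n (toH c)) l
  simpa [pathMap, hl] using h

theorem norm_Y_le {n : ℕ} (c : Y n) {r : ℝ} (hr : 0 ≤ r) (h1 : ‖toH c‖ ≤ r)
    (h2 : ∀ l : List ℕ, l.length ≤ n → |psum (toH c) l| ≤ r) : ‖c‖ ≤ r := by
  rw [norm_Y]
  refine max_le h1 (lp.norm_le_of_forall_le hr fun l => ?_)
  by_cases hl : l.length ≤ n
  · simpa [pathMap, hl] using h2 l hl
  · simpa [pathMap, hl] using hr

theorem norm_ofH_le (n : ℕ) (c : H) : ‖ofH n c‖ ≤ (n + 1) * ‖c‖ := by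
  refine norm_Y_le _ (by positivity) ?_ ?_
  · rw [toH_ofH]
    have := norm_nonneg c
    nlinarith [(Nat.cast_nonneg n : (0 : ℝ) ≤ n)]
  · intro l hl
    rw [toH_ofH]
    refine (abs_psum_le c l).trans ?_
    have : (l.length : ℝ) ≤ n := by exact_mod_cast hl
    gcongr

/-- `toH` as a continuous map. -/
noncomputable def toHL (n : ℕ) : Y n →L[ℝ] H :=
  LinearMap.mkContinuous toH 1 fun c => by rw [one_mul]; exact norm_toH_le c

/-- `ofH` as a continuous map. -/
noncomputable def ofHL (n : ℕ) : H →L[ℝ] Y n :=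
  LinearMap.mkContinuous (ofH n) (n + 1) fun c => norm_ofH_le n c

theorem isReflexive_Y (n : ℕ) : IsReflexive (Y n) :=
  (isReflexive_hilbert H).retract (toHL n) (ofHL n) fun _ => rfl

/-- The predual `Z` of the example: the `ℓ²`-sum of the spaces `Y n`. -/
abbrev Z : Type := lp (fun n : ℕ => Y n) 2

/-- The space of the example. -/
abbrev X : Type := StrongDual ℝ Z

theorem isReflexive_Z : IsReflexive Z := isReflexive_lp2 isReflexive_Y

theorem isReflexive_X : IsReflexive X := isReflexive_Z.dual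

/-! ### Truncations -/

theorem memℓp_of_le (c : H) {f : List ℕ → ℝ} (h : ∀ l, |f l| ≤ |c l|) :
    Memℓp (E := fun _ : List ℕ => ℝ) f 2 := by
  rw [memℓp_gen_iff (by norm_num)]
  have hc := summable_norm_sq c
  refine Summable.of_nonneg_of_le (fun l => by positivity) (fun l => ?_) hc
  simp only [ENNReal.toReal_ofNat, Real.rpow_ofNat, Real.norm_eq_abs, sq_abs]
  exact sq_le_sq.2 (h l)

/-- The element of `H` with given values, dominated by those of `c`. -/
noncomputable def mkH (c : H) (f : List ℕ → ℝ) (h : ∀ l, |f l| ≤ |c l|) : H :=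
  ⟨f, memℓp_of_le c h⟩

@[simp] theorem mkH_apply (c : H) (f : List ℕ → ℝ) (h : ∀ l, |f l| ≤ |c l|) (l : List ℕ) :
    mkH c f h l = f l := rfl

theorem norm_H_sq (c : H) : HasSum (fun l => (c l) ^ 2) (‖c‖ ^ 2) := by
  have := hasSum_norm_sq c
  simpa using this

theorem norm_le_of_abs_le {c d : H} (h : ∀ l, |d l| ≤ |c l|) : ‖d‖ ≤ ‖c‖ := by
  have h1 := norm_H_sq c
  have h2 := norm_H_sq d
  have h3 : ‖d‖ ^ 2 ≤ ‖c‖ ^ 2 := by
    exact hasSum_le (fun l => sq_le_sq.2 (h l)) h2 h1
  exact le_of_sq_le_sq h3 (norm_nonneg _)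

/-- Restriction of `c` to a set of nodes. -/
noncomputable def cut (A : Set (List ℕ)) (c : H) : H := by
  classical
  exact mkH c (fun l => if l ∈ A then c l else 0) (fun l => by
    split_ifs
    · exact le_rfl
    · simp)

theorem cut_apply_mem {A : Set (List ℕ)} (c : H) {l : List ℕ} (hl : l ∈ A) :
    cut A c l = c l := by simp [cut, hl]

theorem cut_apply_notMem {A : Set (List ℕ)} (c : H) {l : List ℕ} (hl : l ∉ A) :
    cut A c l = 0 := by simp [cut, hl]

theorem abs_cut_le (A : Set (List ℕ)) (c : H) (l : List ℕ) : |cut A c l| ≤ |c l| := by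
  by_cases hl : l ∈ A
  · rw [cut_apply_mem c hl]
  · rw [cut_apply_notMem c hl]; simp

/-- A set of nodes is closed downwards (towards the root). -/
def Closed (A : Set (List ℕ)) : Prop := ∀ a l, a :: l ∈ A → l ∈ A

theorem psum_cut_of_mem {A : Set (List ℕ)} (hA : Closed A) (c : H) {l : List ℕ} (hl : l ∈ A) :
    psum (cut A c) l = psum c l := by
  induction l with
  | nil => simp [psum, cut_apply_mem c hl]
  | cons a l ih => simp only [psum]; rw [cut_apply_mem c hl, ih (hA a l hl)]

theorem psum_cut_cases {A : Set (List ℕ)} (hA : Closed A) (c : H) (l : List ℕ) :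
    psum (cut A c) l = 0 ∨ ∃ m, m.length ≤ l.length ∧ psum (cut A c) l = psum c m := by
  induction l with
  | nil =>
    by_cases h : [] ∈ A
    · right; exact ⟨[], le_rfl, psum_cut_of_mem hA c h⟩
    · left; simp [psum, cut_apply_notMem c h]
  | cons a l ih =>
    by_cases h : a :: l ∈ A
    · right; exact ⟨a :: l, le_rfl, psum_cut_of_mem hA c h⟩
    · simp only [psum, cut_apply_notMem c h, zero_add]
      rcases ih with h0 | ⟨m, hm, hm'⟩
      · left; exact h0
      · right; exact ⟨m, hm.trans (by simp), hm'⟩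

theorem abs_psum_cut_le {A : Set (List ℕ)} (hA : Closed A) {n : ℕ} (c : Y n) (l : List ℕ)
    (hl : l.length ≤ n) : |psum (cut A (toH c)) l| ≤ ‖c‖ := by
  rcases psum_cut_cases hA (toH c) l with h0 | ⟨m, hm, hm'⟩
  · rw [h0]; simp
  · rw [hm']; exact abs_psum_le_norm c m (hm.trans hl)

theorem norm_cut_le {A : Set (List ℕ)} (hA : Closed A) {n : ℕ} (c : Y n) :
    ‖ofH n (cut A (toH c))‖ ≤ ‖c‖ := by
  refine norm_Y_le _ (norm_nonneg _) ?_ ?_
  · rw [toH_ofH]
    exact (norm_le_of_abs_le (abs_cut_le A _)).trans (norm_toH_le c)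
  · intro l hl
    rw [toH_ofH]
    exact abs_psum_cut_le hA c l hl

/-! ### The key estimate in `Y n` -/

theorem norm_combo {n : ℕ} (c D : Y n) {ρ r : ℝ} (hρ : ‖c‖ ≤ ρ)
    (hdisj : ∀ l, toH c l = 0 ∨ toH D l = 0) (hD : ‖toH D‖ ≤ r)
    (hps : ∀ l : List ℕ, l.length ≤ n → |psum (toH D) l| ≤ 2 * r)
    (hsign : ∀ l : List ℕ, psum (toH c) l * psum (toH D) l ≤ 0)
    {α β : ℝ} (hα : 0 ≤ α) (hβ : 0 ≤ β) :
    ‖α • c + β • D‖ ^ 2 ≤ α ^ 2 * ρ ^ 2 + 4 * β ^ 2 * r ^ 2 := by
  have hρ0 : 0 ≤ ρ := (norm_nonneg _).trans hρ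
  have hr0 : 0 ≤ r := (norm_nonneg _).trans hD
  set Q : ℝ := α ^ 2 * ρ ^ 2 + 4 * β ^ 2 * r ^ 2 with hQ
  have hQ0 : 0 ≤ Q := by positivity
  have hmain : ‖α • c + β • D‖ ≤ Real.sqrt Q := by
    refine norm_Y_le _ (Real.sqrt_nonneg _) ?_ ?_
    · refine Real.le_sqrt_of_sq_le ?_
      have h1 := norm_H_sq (toH (α • c + β • D))
      have h2 := ((norm_H_sq (toH c)).mul_left (α ^ 2)).add
        ((norm_H_sq (toH D)).mul_left (β ^ 2))
      have h3 : ‖toH (α • c + β • D)‖ ^ 2 = α ^ 2 * ‖toH c‖ ^ 2 + β ^ 2 * ‖toH D‖ ^ 2 := by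
        refine h1.unique ?_
        refine h2.congr_fun fun l => ?_
        have : toH (α • c + β • D) l = α * toH c l + β * toH D l := by
          rw [map_add, map_smul, map_smul]; rfl
        rw [this]
        rcases hdisj l with h | h
        · rw [h]; ring
        · rw [h]; ring
      rw [h3, hQ]
      have h4 : ‖toH c‖ ^ 2 ≤ ρ ^ 2 := by
        gcongr
        exact (norm_toH_le c).trans hρ
      have h5 : ‖toH D‖ ^ 2 ≤ r ^ 2 := by gcongr
      have h6 : β ^ 2 * ‖toH D‖ ^ 2 ≤ 4 * β ^ 2 * r ^ 2 := by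
        have : β ^ 2 * ‖toH D‖ ^ 2 ≤ β ^ 2 * r ^ 2 := by gcongr
        have h7 : 0 ≤ β ^ 2 * r ^ 2 := by positivity
        linarith
      have h8 : α ^ 2 * ‖toH c‖ ^ 2 ≤ α ^ 2 * ρ ^ 2 := by gcongr
      linarith
    · intro l hl
      have h1 : psum (toH (α • c + β • D)) l = α * psum (toH c) l + β * psum (toH D) l := by
        rw [map_add, map_smul, map_smul]
        change psum (α • (⇑(toH c) : List ℕ → ℝ) + β • (⇑(toH D) : List ℕ → ℝ)) l = _
        rw [psum_add, psum_smul, psum_smul]
      refine Real.abs_le_sqrt ?_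
      rw [h1]
      have h2 : |psum (toH c) l| ≤ ρ := (abs_psum_le_norm c l hl).trans hρ
      have h3 := hps l hl
      have h4 : psum (toH c) l ^ 2 ≤ ρ ^ 2 := by
        rw [← sq_abs]; gcongr
      have h5 : psum (toH D) l ^ 2 ≤ (2 * r) ^ 2 := by
        rw [← sq_abs]; gcongr
      have h6 : α * β * (psum (toH c) l * psum (toH D) l) ≤ 0 :=
        mul_nonpos_of_nonneg_of_nonpos (by positivity) (hsign l)
      have h7 : α ^ 2 * psum (toH c) l ^ 2 ≤ α ^ 2 * ρ ^ 2 := by gcongr
      have h8 : β ^ 2 * psum (toH D) l ^ 2 ≤ β ^ 2 * (2 * r) ^ 2 := by gcongr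
      calc (α * psum (toH c) l + β * psum (toH D) l) ^ 2
          = α ^ 2 * psum (toH c) l ^ 2 + β ^ 2 * psum (toH D) l ^ 2
            + 2 * (α * β * (psum (toH c) l * psum (toH D) l)) := by ring
        _ ≤ α ^ 2 * ρ ^ 2 + β ^ 2 * (2 * r) ^ 2 := by linarith
        _ = Q := by rw [hQ]; ring
  calc ‖α • c + β • D‖ ^ 2 ≤ (Real.sqrt Q) ^ 2 := by gcongr
    _ = Q := Real.sq_sqrt hQ0

/-- Increments of a function on the tree. -/
def incr (B : List ℕ → ℝ) : List ℕ → ℝ
  | [] => B []
  | (a :: l) => B (a :: l) - B l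

theorem psum_incr (B : List ℕ → ℝ) (l : List ℕ) : psum (incr B) l = B l := by
  induction l with
  | nil => rfl
  | cons a l ih => simp only [psum, incr, ih]; ring

/-- The part of `b` opposite to the sign of `β`. -/
noncomputable def oppPart (β b : ℝ) : ℝ := if 0 ≤ β then min b 0 else max b 0

theorem oppPart_zero (β : ℝ) : oppPart β 0 = 0 := by simp [oppPart]

theorem oppPart_lip (β b b' : ℝ) : |oppPart β b - oppPart β b'| ≤ |b - b'| := by
  unfold oppPart
  split_ifs
  · exact (abs_min_sub_min_le_max b 0 b' 0).trans (by simp)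
  · exact (abs_max_sub_max_le_abs b b' 0)

theorem oppPart_abs (β b : ℝ) : |oppPart β b| ≤ |b| := by
  have := oppPart_lip β b 0
  simpa [oppPart_zero] using this

theorem oppPart_sign (β b : ℝ) : β * oppPart β b ≤ 0 := by
  unfold oppPart
  split_ifs with h
  · exact mul_nonpos_of_nonneg_of_nonpos h (min_le_right _ _)
  · push Not at h
    exact mul_nonpos_of_nonpos_of_nonneg h.le (le_max_right _ _)

theorem samePart_eq (β b : ℝ) : oppPart β b - b = oppPart β (-b) := by
  unfold oppPart
  split_ifs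
  · rcases le_total b 0 with h | h
    · rw [min_eq_left h, min_eq_right (by linarith)]; ring
    · rw [min_eq_right h, min_eq_left (by linarith)]; ring
  · rcases le_total b 0 with h | h
    · rw [max_eq_right h, max_eq_left (by linarith)]; ring
    · rw [max_eq_left h, max_eq_right (by linarith)]; ring

end Vale.Agent.P069
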