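import Mathlib
import Vale.Agent.P069.Tree

/-! The asymptotic midpoint uniform convexity of `X`. -/

open NormedSpace
open scoped ENNReal

namespace Vale.Agent.P069

/-- The unit vector of `Z` at the node `l` of the `n`-th tree. -/
noncomputable def unitZ (n : ℕ) (l : List ℕ) : Z :=
  lp.single 2 n (ofH n (lp.single 2 l (1 : ℝ)))

theorem memℓp_Z_of_le (d : Z) {f : ∀ n, Y n} {K : ℝ} (h : ∀ n, ‖f n‖ ^ 2 ≤ K * ‖d n‖ ^ 2) :
    Memℓp (E := fun n : ℕ => Y n) f 2 := by
  rw [memℓp_gen_iff (by norm_num)]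
  refine Summable.of_nonneg_of_le (fun l => by positivity) (fun l => ?_)
    ((summable_norm_sq d).mul_left K)
  simpa using h l

/-- Set of nodes of the `n`-th tree belonging to the finite set `s × A`. -/
def sec (s : Finset ℕ) (A : Finset (List ℕ)) (n : ℕ) : Set (List ℕ) :=
  {l | n ∈ s ∧ l ∈ A}

theorem sec_closed {s : Finset ℕ} {A : Finset (List ℕ)} (hA : ∀ a l, a :: l ∈ A → l ∈ A)
    (n : ℕ) : Closed (sec s A n) := fun a l h => ⟨h.1, hA a l h.2⟩

/-- Restriction of `c` to the finite set `s × A`. -/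
noncomputable def cutZ (s : Finset ℕ) (A : Finset (List ℕ)) (hA : ∀ a l, a :: l ∈ A → l ∈ A)
    (c : Z) : Z :=
  ⟨fun n => ofH n (cut (sec s A n) (toH (c n))), memℓp_Z_of_le c (K := 1) fun n => by
    rw [one_mul]
    have := norm_cut_le (sec_closed (s := s) hA n) (c n)
    gcongr⟩

theorem cutZ_apply (s : Finset ℕ) (A : Finset (List ℕ)) (hA : ∀ a l, a :: l ∈ A → l ∈ A)
    (c : Z) (n : ℕ) : cutZ s A hA c n = ofH n (cut (sec s A n) (toH (c n))) := rfl

theorem norm_cutZ_le (s : Finset ℕ) (A : Finset (List ℕ)) (hA : ∀ a l, a :: l ∈ A → l ∈ A)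
    (c : Z) : ‖cutZ s A hA c‖ ≤ ‖c‖ := by
  have h1 := hasSum_norm_sq (cutZ s A hA c)
  have h2 := hasSum_norm_sq c
  have h3 : ‖cutZ s A hA c‖ ^ 2 ≤ ‖c‖ ^ 2 := by
    refine hasSum_le (fun n => ?_) h1 h2
    rw [cutZ_apply]
    have := norm_cut_le (sec_closed (s := s) hA n) (c n)
    gcongr
  exact le_of_sq_le_sq h3 (norm_nonneg _)

theorem cutZ_eq_sum (s : Finset ℕ) (A : Finset (List ℕ)) (hA : ∀ a l, a :: l ∈ A → l ∈ A)
    (c : Z) : cutZ s A hA c = ∑ n ∈ s, ∑ l ∈ A, (toH (c n) l) • unitZ n l := by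
  ext n
  rw [cutZ_apply]
  simp only [lp.coeFn_sum, Finset.sum_apply, lp.coeFn_smul, Pi.smul_apply, unitZ,
    lp.single_apply]
  by_cases hn : n ∈ s
  · rw [Finset.sum_eq_single n]
    · have h1 : ∀ l ∈ A, (toH (c n) l) • (Pi.single n (ofH n (lp.single 2 l (1 : ℝ))) :
          ∀ n, Y n) n = ofH n (lp.single 2 l (toH (c n) l)) := by
        intro l _
        rw [Pi.single_eq_same, ← map_smul, ← lp.single_smul]
        simp
      rw [Finset.sum_congr rfl h1, ← map_sum]
      congr 1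
      ext l
      simp only [lp.coeFn_sum, Finset.sum_apply, lp.single_apply]
      by_cases hl : l ∈ A
      · rw [cut_apply_mem _ (show l ∈ sec s A n from ⟨hn, hl⟩), Finset.sum_eq_single l]
        · simp
        · intro j _ hj
          exact Pi.single_eq_of_ne hj.symm _
        · intro h; exact absurd hl h
      · rw [cut_apply_notMem _ (fun h => hl h.2)]
        symm
        refine Finset.sum_eq_zero fun j hj => ?_
        have : l ≠ j := fun h => hl (h ▸ hj)
        exact Pi.single_eq_of_ne this _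
    · intro m _ hm
      refine Finset.sum_eq_zero fun l _ => ?_
      rw [Pi.single_eq_of_ne hm.symm, smul_zero]
    · intro h; exact absurd hn h
  · symm
    rw [Finset.sum_eq_zero]
    · symm
      have : cut (sec s A n) (toH (c n)) = 0 := by
        ext l
        rw [cut_apply_notMem _ (fun h => hn h.1)]; rfl
      rw [this, map_zero]
    · intro m hm
      refine Finset.sum_eq_zero fun l _ => ?_
      have : n ≠ m := fun h => hn (h ▸ hm)
      rw [Pi.single_eq_of_ne this, smul_zero]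

/-- Functionals on `Z` are small on vectors vanishing on a large finite set. -/
theorem exists_finite_small (x : X) {η : ℝ} (hη : 0 < η) :
    ∃ (s : Finset ℕ) (A : Finset (List ℕ)), (∀ a l, a :: l ∈ A → l ∈ A) ∧
      ∀ w : Z, (∀ n ∈ s, ∀ l ∈ A, toH (w n) l = 0) → |x w| ≤ η * ‖w‖ := by
  classical
  obtain ⟨s, hs⟩ := exists_tail_small x (ε := η / 2) (by positivity)
  set κ : ℝ := η / (2 * (s.card + 1)) with hκ
  have hκpos : 0 < κ := by positivity
  have h1 : ∀ n : ℕ, ∃ A : Finset (List ℕ), ∀ w : H, (∀ l ∈ A, w l = 0) →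
      |x (lp.single 2 n (ofH n w))| ≤ κ * ‖w‖ := by
    intro n
    obtain ⟨A, hA⟩ := exists_tail_small (E := fun _ : List ℕ => ℝ)
      (x.comp ((lp.singleContinuousLinearMap ℝ (fun n : ℕ => Y n) 2 n).comp (ofHL n))) hκpos
    exact ⟨A, fun w hw => hA w hw⟩
  choose A hA using h1
  let A' : Finset (List ℕ) := (s.biUnion A).biUnion fun l => l.tails.toFinset
  have hclosed : ∀ a l, a :: l ∈ A' → l ∈ A' := by
    intro a l h
    simp only [A', Finset.mem_biUnion, List.mem_toFinset, List.mem_tails] at h ⊢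
    obtain ⟨m, hm, hm'⟩ := h
    exact ⟨m, hm, (List.suffix_cons a l).trans hm'⟩
  have hsub : ∀ n ∈ s, ∀ l ∈ A n, l ∈ A' := by
    intro n hn l hl
    simp only [A', Finset.mem_biUnion, List.mem_toFinset, List.mem_tails]
    exact ⟨l, ⟨n, hn, hl⟩, List.suffix_refl l⟩
  refine ⟨s, A', hclosed, ?_⟩
  intro w hw
  have h2 : x w = x (w - ∑ n ∈ s, lp.single 2 n (w n)) + ∑ n ∈ s, x (lp.single 2 n (w n)) := by
    rw [← map_sum, ← map_add, sub_add_cancel]
  have h3 : |x (w - ∑ n ∈ s, lp.single 2 n (w n))| ≤ η / 2 * ‖w‖ := by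
    refine (hs _ ?_).trans ?_
    · intro i hi
      simp only [lp.coeFn_sub, lp.coeFn_sum, Pi.sub_apply, Finset.sum_apply, lp.single_apply]
      rw [Finset.sum_eq_single i]
      · simp
      · intro j _ hj
        exact Pi.single_eq_of_ne hj.symm _
      · intro h; exact absurd hi h
    · gcongr
      have h4 := lp.norm_compl_sum_single (E := fun n : ℕ => Y n) (p := 2) (by norm_num) w s
      have h5 : ‖w - ∑ i ∈ s, lp.single 2 i (w i)‖ ^ 2 ≤ ‖w‖ ^ 2 := by
        have h6 : ‖w - ∑ i ∈ s, lp.single 2 i (w i)‖ ^ 2 = ‖w‖ ^ 2 - ∑ i ∈ s, ‖w i‖ ^ 2 := by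
          simpa using h4
        rw [h6]
        have : 0 ≤ ∑ i ∈ s, ‖w i‖ ^ 2 := Finset.sum_nonneg fun i _ => sq_nonneg _
        linarith
      exact le_of_sq_le_sq h5 (norm_nonneg _)
  have h4 : |∑ n ∈ s, x (lp.single 2 n (w n))| ≤ η / 2 * ‖w‖ := by
    calc |∑ n ∈ s, x (lp.single 2 n (w n))| ≤ ∑ n ∈ s, |x (lp.single 2 n (w n))| :=
          Finset.abs_sum_le_sum_abs _ _
      _ ≤ ∑ n ∈ s, κ * ‖w‖ := by
          refine Finset.sum_le_sum fun n hn => ?_
          have h5 := hA n (toH (w n)) (fun l hl => hw n hn l (hsub n hn l hl))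
          rw [ofH_toH] at h5
          refine h5.trans ?_
          gcongr
          exact (norm_toH_le _).trans (lp.norm_apply_le_norm (by norm_num) w n)
      _ = s.card * κ * ‖w‖ := by rw [Finset.sum_const, nsmul_eq_mul]; ring
      _ ≤ η / 2 * ‖w‖ := by
          gcongr
          rw [hκ]
          have : (0 : ℝ) ≤ s.card := Nat.cast_nonneg _
          rw [← mul_div_assoc, div_le_iff₀ (by positivity)]
          nlinarith
  rw [h2]
  calc |x (w - ∑ n ∈ s, lp.single 2 n (w n)) + ∑ n ∈ s, x (lp.single 2 n (w n))|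
      ≤ |x (w - ∑ n ∈ s, lp.single 2 n (w n))| + |∑ n ∈ s, x (lp.single 2 n (w n))| :=
        abs_add_le _ _
    _ ≤ η / 2 * ‖w‖ + η / 2 * ‖w‖ := by gcongr
    _ = η * ‖w‖ := by ring

/-! ### The sign splitting -/

section split

variable (s : Finset ℕ) (A : Finset (List ℕ)) (hA : ∀ a l, a :: l ∈ A → l ∈ A)

/-- The part of `e` whose path sums are opposite to those of `c`. -/
noncomputable def oppFun (c e : H) : List ℕ → ℝ :=
  incr fun l => oppPart (psum c l) (psum e l)

theorem psum_oppFun (c e : H) (l : List ℕ) :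
    psum (oppFun c e) l = oppPart (psum c l) (psum e l) := psum_incr _ l

/-- `c` lives on `A`, `e` lives off `A` and `A` is closed: pointwise domination. -/
theorem abs_oppFun_le {A : Set (List ℕ)} (hA : Closed A) {c e : H}
    (hc : ∀ l, l ∉ A → c l = 0) (he : ∀ l ∈ A, e l = 0) (l : List ℕ) :
    |oppFun c e l| ≤ |e l| := by
  have hps : ∀ l ∈ A, psum e l = 0 := by
    intro l
    induction l with
    | nil => intro h; simpa [psum] using he _ h
    | cons a l ih => intro h; simp only [psum]; rw [he _ h, ih (hA a l h), add_zero]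
  cases l with
  | nil =>
    simp only [oppFun, incr, psum]
    exact oppPart_abs _ _
  | cons a l =>
    simp only [oppFun, incr]
    by_cases hl : l ∈ A
    · rw [hps l hl, oppPart_zero, sub_zero]
      refine (oppPart_abs _ _).trans ?_
      simp only [psum]
      rw [hps l hl, add_zero]
    · have hal : a :: l ∉ A := fun h => hl (hA a l h)
      have h1 : psum c (a :: l) = psum c l := by
        simp only [psum]; rw [hc _ hal, zero_add]
      rw [h1]
      refine (oppPart_lip _ _ _).trans ?_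
      have h2 : psum e (a :: l) - psum e l = e (a :: l) := by simp only [psum]; ring
      rw [h2]

end split

/-- Main splitting lemma. For `c` supported on `s × A` and `e` vanishing there, write
`e = D₁ - D₂` with both `D₁`, `D₂` having path sums opposite to those of `c`. -/
theorem exists_split (s : Finset ℕ) (A : Finset (List ℕ)) (hA : ∀ a l, a :: l ∈ A → l ∈ A)
    (c₀ d : Z) :
    ∃ D₁ D₂ : Z, D₁ - D₂ = d - cutZ s A hA d ∧
      (∀ D ∈ ({D₁, D₂} : Set Z),
        (∀ n ∈ s, ∀ l ∈ A, toH (D n) l = 0) ∧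
        ∀ α β : ℝ, 0 ≤ α → 0 ≤ β →
          ‖α • cutZ s A hA c₀ + β • D‖ ^ 2 ≤ α ^ 2 * ‖c₀‖ ^ 2 + 4 * β ^ 2 * ‖d‖ ^ 2) := by
  classical
  -- abbreviations
  set c : Z := cutZ s A hA c₀ with hc
  set e : Z := d - cutZ s A hA d with he
  have hcoff : ∀ n l, l ∉ sec s A n → toH (c n) l = 0 := by
    intro n l hl
    rw [hc, cutZ_apply, toH_ofH, cut_apply_notMem _ hl]
  have he' : ∀ n, toH (e n) = toH (d n) - cut (sec s A n) (toH (d n)) := by
    intro n
    rw [he, lp.coeFn_sub, Pi.sub_apply, cutZ_apply, map_sub, toH_ofH]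
  have heon : ∀ n, ∀ l ∈ sec s A n, toH (e n) l = 0 := by
    intro n l hl
    rw [he', lp.coeFn_sub, Pi.sub_apply, cut_apply_mem _ hl, sub_self]
  have hedom : ∀ n l, |toH (e n) l| ≤ |toH (d n) l| := by
    intro n l
    by_cases hl : l ∈ sec s A n
    · rw [heon n l hl]; simp
    · rw [he', lp.coeFn_sub, Pi.sub_apply, cut_apply_notMem _ hl, sub_zero]
  have heps : ∀ n, ∀ l : List ℕ, l.length ≤ n → |psum (toH (e n)) l| ≤ 2 * ‖d n‖ := by
    intro n l hl
    rw [he']
    have h1 : psum (⇑(toH (d n) - cut (sec s A n) (toH (d n))) : List ℕ → ℝ) l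
        = psum (toH (d n)) l - psum (cut (sec s A n) (toH (d n))) l := by
      rw [lp.coeFn_sub, psum_sub]
    rw [h1]
    calc |psum (toH (d n)) l - psum (cut (sec s A n) (toH (d n))) l|
        ≤ |psum (toH (d n)) l| + |psum (cut (sec s A n) (toH (d n))) l| := abs_sub _ _
      _ ≤ ‖d n‖ + ‖d n‖ := by
          gcongr
          · exact abs_psum_le_norm _ _ hl
          · exact abs_psum_cut_le (sec_closed hA n) _ _ hl
      _ = 2 * ‖d n‖ := by ring
  -- general construction for a vector `e'` with the same properties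
  have hgen : ∀ f : ∀ n, Y n, (∀ n l, |toH (f n) l| ≤ |toH (e n) l|) →
      (∀ n l, psum (toH (c n)) l * psum (toH (f n)) l ≤ 0) →
      (∀ n l, |psum (toH (f n)) l| ≤ |psum (toH (e n)) l|) →
      ∃ D : Z, (∀ n, D n = f n) ∧ (∀ n ∈ s, ∀ l ∈ A, toH (D n) l = 0) ∧
        ∀ α β : ℝ, 0 ≤ α → 0 ≤ β →
          ‖α • c + β • D‖ ^ 2 ≤ α ^ 2 * ‖c₀‖ ^ 2 + 4 * β ^ 2 * ‖d‖ ^ 2 := by
    intro f hf1 hf2 hf3
    have hcombo : ∀ n (α β : ℝ), 0 ≤ α → 0 ≤ β →
        ‖α • c n + β • f n‖ ^ 2 ≤ α ^ 2 * ‖c₀ n‖ ^ 2 + 4 * β ^ 2 * ‖d n‖ ^ 2 := by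
      intro n α β hα hβ
      refine norm_combo (c n) (f n) ?_ ?_ ?_ ?_ ?_ hα hβ
      · rw [hc, cutZ_apply]; exact norm_cut_le (sec_closed hA n) _
      · intro l
        by_cases hl : l ∈ sec s A n
        · right
          have := hf1 n l
          rw [heon n l hl, abs_zero] at this
          exact abs_nonpos_iff.1 this
        · left; exact hcoff n l hl
      · refine (norm_le_of_abs_le (c := toH (d n)) ?_).trans (norm_toH_le _)
        intro l
        exact (hf1 n l).trans (hedom n l)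
      · intro l hl
        exact (hf3 n l).trans (heps n l hl)
      · exact hf2 n
    have hmem : Memℓp (E := fun n : ℕ => Y n) f 2 := by
      refine memℓp_Z_of_le d (K := 4) fun n => ?_
      have := hcombo n 0 1 le_rfl zero_le_one
      simpa using this
    refine ⟨⟨f, hmem⟩, fun n => rfl, ?_, ?_⟩
    · intro n hn l hl
      have := hf1 n l
      rw [heon n l ⟨hn, hl⟩, abs_zero] at this
      exact abs_nonpos_iff.1 this
    · intro α β hα hβ
      set D : Z := ⟨f, hmem⟩ with hD
      have h1 := hasSum_norm_sq (α • c + β • D)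
      have h2 := ((hasSum_norm_sq c₀).mul_left (α ^ 2)).add
        ((hasSum_norm_sq d).mul_left (4 * β ^ 2))
      exact hasSum_le (fun n => hcombo n α β hα hβ) h1 h2
  -- the two parts
  have hdom : ∀ n l, |oppFun (toH (c n)) (toH (e n)) l| ≤ |toH (e n) l| := fun n l =>
    abs_oppFun_le (sec_closed hA n) (hcoff n) (heon n) l
  have hdom' : ∀ n l, |oppFun (toH (c n)) (-toH (e n)) l| ≤ |toH (e n) l| := fun n l => by
    have := abs_oppFun_le (sec_closed hA n) (c := toH (c n)) (e := -toH (e n)) (hcoff n)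
      (fun l hl => by rw [lp.coeFn_neg, Pi.neg_apply, heon n l hl, neg_zero]) l
    simpa [lp.coeFn_neg] using this
  have hneg : ∀ n l, psum (⇑(-toH (e n)) : List ℕ → ℝ) l = -psum (toH (e n)) l := by
    intro n l
    have := psum_smul (-1) (⇑(toH (e n)) : List ℕ → ℝ) l
    rw [lp.coeFn_neg]
    simpa using this
  let f₁ : ∀ n, Y n := fun n => ofH n (mkH (toH (e n)) (oppFun (toH (c n)) (toH (e n))) (hdom n))
  let f₂ : ∀ n, Y n := fun n => ofH n (mkH (toH (e n)) (oppFun (toH (c n)) (-toH (e n)))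
    (hdom' n))
  have hf₁ : ∀ n, (⇑(toH (f₁ n)) : List ℕ → ℝ) = oppFun (toH (c n)) (toH (e n)) :=
    fun n => rfl
  have hf₂ : ∀ n, (⇑(toH (f₂ n)) : List ℕ → ℝ) = oppFun (toH (c n)) (-toH (e n)) :=
    fun n => rfl
  obtain ⟨D₁, hD₁, hD₁', hD₁''⟩ := hgen f₁ (fun n l => by rw [hf₁]; exact hdom n l)
    (fun n l => by rw [hf₁, psum_oppFun]; exact oppPart_sign _ _)
    (fun n l => by rw [hf₁, psum_oppFun]; exact oppPart_abs _ _)
  obtain ⟨D₂, hD₂, hD₂', hD₂''⟩ := hgen f₂ (fun n l => by rw [hf₂]; exact hdom' n l)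
    (fun n l => by rw [hf₂, psum_oppFun]; exact oppPart_sign _ _)
    (fun n l => by
      rw [hf₂, psum_oppFun, hneg]
      refine (oppPart_abs _ _).trans ?_
      rw [abs_neg])
  refine ⟨D₁, D₂, ?_, ?_⟩
  · ext n
    rw [lp.coeFn_sub, Pi.sub_apply, hD₁, hD₂]
    have : toH (f₁ n - f₂ n) = toH (e n) := by
      rw [map_sub]
      ext l
      rw [lp.coeFn_sub, Pi.sub_apply, hf₁, hf₂]
      -- compare increments
      have h1 : ∀ l, oppPart (psum (toH (c n)) l) (psum (toH (e n)) l) -
          oppPart (psum (toH (c n)) l) (psum (⇑(-toH (e n)) : List ℕ → ℝ) l)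
            = psum (toH (e n)) l := by
        intro l
        rw [hneg, ← samePart_eq]; ring
      cases l with
      | nil =>
        simp only [oppFun, incr]
        rw [h1]; rfl
      | cons a l =>
        simp only [oppFun, incr]
        have h2 := h1 (a :: l)
        have h3 := h1 l
        have h4 : psum (toH (e n)) (a :: l) = toH (e n) (a :: l) + psum (toH (e n)) l := rfl
        linarith
    exact this
  · intro D hD
    rcases hD with rfl | hD
    · exact ⟨hD₁', hD₁''⟩
    · rw [Set.mem_singleton_iff] at hD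
      subst hD
      exact ⟨hD₂', hD₂''⟩

end Vale.Agent.P069
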