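import Mathlib
import Vale.Agent.P069.Amuc

/-! Quantitative midpoint convexity of `X` along finite codimensional subspaces. -/

open NormedSpace
open scoped ENNReal

namespace Vale.Agent.P069

theorem exists_norming {E : Type*} [NormedAddCommGroup E] [NormedSpace ℝ E]
    (x : StrongDual ℝ E) {η : ℝ} (hη : 0 < η) : ∃ c : E, ‖c‖ ≤ 1 ∧ ‖x‖ - η ≤ x c := by
  by_cases h0 : ‖x‖ - η ≤ 0
  · exact ⟨0, by simp, by simpa using h0⟩
  · push Not at h0
    obtain ⟨z, hz1, hz2⟩ := x.exists_lt_apply_of_lt_opNorm (r := ‖x‖ - η) (by linarith)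
    rcases le_or_gt 0 (x z) with hs | hs
    · refine ⟨z, hz1.le, ?_⟩
      rw [Real.norm_eq_abs, abs_of_nonneg hs] at hz2
      exact hz2.le
    · refine ⟨-z, by simpa using hz1.le, ?_⟩
      rw [Real.norm_eq_abs, abs_of_neg hs] at hz2
      simpa using hz2.le

/-- The finite codimensional subspace of functionals vanishing on the unit vectors of `s × A`. -/
noncomputable def annih (s : Finset ℕ) (A : Finset (List ℕ)) : Submodule ℝ X :=
  LinearMap.ker (LinearMap.pi fun p : (s ×ˢ A : Finset (ℕ × List ℕ)) =>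
    ((inclusionInDoubleDual ℝ Z (unitZ p.1.1 p.1.2) : StrongDual ℝ X) : X →ₗ[ℝ] ℝ))

theorem mem_annih {s : Finset ℕ} {A : Finset (List ℕ)} {y : X} :
    y ∈ annih s A ↔ ∀ n ∈ s, ∀ l ∈ A, y (unitZ n l) = 0 := by
  unfold annih
  rw [LinearMap.mem_ker]
  constructor
  · intro h n hn l hl
    have := congrFun h ⟨(n, l), Finset.mem_product.2 ⟨hn, hl⟩⟩
    simpa using this
  · intro h
    funext p
    have h1 := Finset.mem_product.1 p.2
    simpa using h p.1.1 h1.1 p.1.2 h1.2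

theorem isClosed_annih (s : Finset ℕ) (A : Finset (List ℕ)) :
    IsClosed (annih s A : Set X) := by
  have : (annih s A : Set X) = ⋂ n ∈ s, ⋂ l ∈ A,
      {y : X | inclusionInDoubleDual ℝ Z (unitZ n l) y = 0} := by
    ext y
    simp only [SetLike.mem_coe, mem_annih, Set.mem_iInter, Set.mem_ofPred_eq, dual_def]
  rw [this]
  refine isClosed_biInter fun n _ => isClosed_biInter fun l _ => ?_
  exact isClosed_eq (ContinuousLinearMap.continuous _) continuous_const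

theorem finiteDimensional_annih (s : Finset ℕ) (A : Finset (List ℕ)) :
    FiniteDimensional ℝ (X ⧸ annih s A) := by
  unfold annih
  exact LinearEquiv.finiteDimensional (LinearMap.quotKerEquivRange _).symm

/-- Numerical part of the main inequality. -/
theorem numeric_step {β t η a b v : ℝ} (hβpos : 0 < β) (hβt : β ≤ t / 32)
    (hβ1 : β ≤ 1 / 32) (hηpos : 0 < η) (hη1 : η ≤ β * t / 80)
    (ha : 1 - 3 * η ≤ a) (hb : -(2 * η) ≤ b) (hv : 1 / 4 ≤ v) :
    1 + β * t / 16 ≤ (1 - 4 * β ^ 2) * a + β * b + t * β * v := by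
  have hβsq : β ^ 2 ≤ (1 / 32) ^ 2 := by gcongr
  have hα0 : 0 ≤ 1 - 4 * β ^ 2 := by nlinarith
  have htpos : 0 < t := by linarith
  have h12 : (1 - 4 * β ^ 2) * (1 - 3 * η) ≤ (1 - 4 * β ^ 2) * a := by gcongr
  have h13 : β * (-(2 * η)) ≤ β * b := by gcongr
  have h14 : t * β * (1 / 4) ≤ t * β * v := by gcongr
  have h15 : (1 - 4 * β ^ 2) - 3 * η ≤ (1 - 4 * β ^ 2) * (1 - 3 * η) := by
    have : 0 ≤ β ^ 2 * η := by positivity
    nlinarith
  have h16 : β * (2 * η) ≤ 2 * η := by nlinarith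
  have h17 : 4 * β ^ 2 ≤ β * t / 8 := by nlinarith
  linarith

/-- Duality step of the main inequality. -/
theorem duality_step {x y : X} {c D : Z} {σ t β : ℝ} (hβpos : 0 < β) (hβ1 : β ≤ 1 / 32)
    (hnorm : ∀ α β : ℝ, 0 ≤ α → 0 ≤ β → ‖α • c + β • D‖ ^ 2 ≤ α ^ 2 + 4 * β ^ 2)
    (hyc : y c = 0) :
    (1 - 4 * β ^ 2) * x c + β * x D + t * β * (σ * y D) ≤ ‖x + (σ * t) • y‖ := by
  have hβsq : β ^ 2 ≤ (1 / 32) ^ 2 := by gcongr
  have hα0 : 0 ≤ 1 - 4 * β ^ 2 := by nlinarith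
  have h1 : ‖(1 - 4 * β ^ 2) • c + β • D‖ ≤ 1 := by
    have h2 := hnorm (1 - 4 * β ^ 2) β hα0 hβpos.le
    have h8 : (1 - 4 * β ^ 2) ^ 2 + 4 * β ^ 2 ≤ 1 := by
      nlinarith [sq_nonneg β, mul_nonneg (sq_nonneg β) (sub_nonneg.2 hβsq)]
    have h9 : ‖(1 - 4 * β ^ 2) • c + β • D‖ ^ 2 ≤ 1 ^ 2 := by
      rw [one_pow]; exact h2.trans h8
    exact le_of_sq_le_sq h9 zero_le_one
  have h10 : (x + (σ * t) • y) ((1 - 4 * β ^ 2) • c + β • D) =
      (1 - 4 * β ^ 2) * x c + β * x D + t * β * (σ * y D) := by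
    rw [map_add, map_smul, map_smul, add_apply, add_apply, smul_apply, smul_apply, hyc]
    simp only [smul_eq_mul]
    ring
  rw [← h10]
  calc (x + (σ * t) • y) ((1 - 4 * β ^ 2) • c + β • D)
      ≤ ‖(x + (σ * t) • y) ((1 - 4 * β ^ 2) • c + β • D)‖ := Real.le_norm_self _
    _ ≤ ‖x + (σ * t) • y‖ * ‖(1 - 4 * β ^ 2) • c + β • D‖ := ContinuousLinearMap.le_opNorm _ _
    _ ≤ ‖x + (σ * t) • y‖ * 1 := by gcongr
    _ = ‖x + (σ * t) • y‖ := mul_one _

theorem cutZ_norming {x : X} (hx : ‖x‖ = 1) {η : ℝ} {s : Finset ℕ}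
    {A : Finset (List ℕ)} (hA : ∀ a l, a :: l ∈ A → l ∈ A)
    (hη : 0 < η)
    (hsmall : ∀ w : Z, (∀ n ∈ s, ∀ l ∈ A, toH (w n) l = 0) → |x w| ≤ η * ‖w‖)
    {c₀ : Z} (hc₀ : ‖c₀‖ ≤ 1) (hxc₀ : ‖x‖ - η ≤ x c₀) :
    1 - 3 * η ≤ x (cutZ s A hA c₀) := by
  set c : Z := cutZ s A hA c₀ with hc
  have h1 : x c₀ = x c + x (c₀ - c) := by rw [map_sub]; ring
  have h2 : |x (c₀ - c)| ≤ η * ‖c₀ - c‖ := by
    refine hsmall _ ?_
    intro n hn l hl
    rw [hc, lp.coeFn_sub, Pi.sub_apply, cutZ_apply, map_sub, toH_ofH, lp.coeFn_sub,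
      Pi.sub_apply, cut_apply_mem _ (show l ∈ sec s A n from ⟨hn, hl⟩), sub_self]
  have h3 : ‖c₀ - c‖ ≤ 2 := by
    have h5 : ‖c‖ ≤ 1 := (norm_cutZ_le s A hA c₀).trans hc₀
    have h6 := norm_sub_le c₀ c
    linarith
  have h4 : x (c₀ - c) ≤ 2 * η := by
    have h7 := le_abs_self (x (c₀ - c))
    have h8 : η * ‖c₀ - c‖ ≤ η * 2 := by gcongr
    linarith
  rw [hx] at hxc₀
  linarith

/-- The main inequality. -/
theorem amuc_ineq {x : X} (hx : ‖x‖ = 1) {t : ℝ} (ht : 0 < t) :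
    ∃ F : Submodule ℝ X, IsClosed (F : Set X) ∧ FiniteDimensional ℝ (X ⧸ F) ∧
      ∀ y ∈ F, ‖y‖ = 1 →
        1 + min t 1 * t / 512 ≤ max ‖x + t • y‖ ‖x - t • y‖ := by
  set β : ℝ := min t 1 / 32 with hβ
  have hβpos : 0 < β := by positivity
  have hβt : β ≤ t / 32 := by rw [hβ]; gcongr; exact min_le_left _ _
  have hβ1 : β ≤ 1 / 32 := by rw [hβ]; gcongr; exact min_le_right _ _
  set η : ℝ := min (β * t / 80) (1 / 2) with hη
  have hηpos : 0 < η := by positivity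
  have hη1 : η ≤ β * t / 80 := min_le_left _ _
  have hη2 : η ≤ 1 / 2 := min_le_right _ _
  obtain ⟨s, A, hA, hsmall⟩ := exists_finite_small x hηpos
  obtain ⟨c₀, hc₀, hxc₀⟩ := exists_norming x hηpos
  refine ⟨annih s A, isClosed_annih s A, finiteDimensional_annih s A, ?_⟩
  intro y hy hy1
  rw [mem_annih] at hy
  obtain ⟨d, hd, hyd⟩ := exists_norming y hηpos
  obtain ⟨D₁, D₂, hD, hprop⟩ := exists_split s A hA c₀ d
  -- `y` vanishes on truncations
  have hycut : ∀ z : Z, y (cutZ s A hA z) = 0 := by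
    intro z
    rw [cutZ_eq_sum, map_sum]
    refine Finset.sum_eq_zero fun n hn => ?_
    rw [map_sum]
    refine Finset.sum_eq_zero fun l hl => ?_
    rw [map_smul, hy n hn l hl, smul_zero]
  have hyc : y (cutZ s A hA c₀) = 0 := hycut c₀
  have hyD : y D₁ - y D₂ = y d := by
    rw [← map_sub, hD, map_sub, hycut, sub_zero]
  have hxc : 1 - 3 * η ≤ x (cutZ s A hA c₀) := cutZ_norming hx hA hηpos hsmall hc₀ hxc₀
  have hnorm2 : ∀ D ∈ ({D₁, D₂} : Set Z), ∀ α β : ℝ, 0 ≤ α → 0 ≤ β →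
      ‖α • cutZ s A hA c₀ + β • D‖ ^ 2 ≤ α ^ 2 + 4 * β ^ 2 := by
    intro D hDmem α β hα hβ
    refine ((hprop D hDmem).2 α β hα hβ).trans ?_
    have h4 : ‖c₀‖ ^ 2 ≤ 1 := by nlinarith [norm_nonneg c₀]
    have h5 : ‖d‖ ^ 2 ≤ 1 := by nlinarith [norm_nonneg d]
    have h6 : α ^ 2 * ‖c₀‖ ^ 2 ≤ α ^ 2 * 1 := by gcongr
    have h7 : 4 * β ^ 2 * ‖d‖ ^ 2 ≤ 4 * β ^ 2 * 1 := by gcongr
    linarith
  -- conclusion from a good vector `D` and sign
  have hfin : ∀ D ∈ ({D₁, D₂} : Set Z), ∀ σ : ℝ, 1 / 4 ≤ σ * y D →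
      1 + min t 1 * t / 512 ≤ ‖x + (σ * t) • y‖ := by
    intro D hDmem σ hσ
    have hDnorm : ‖D‖ ≤ 2 := by
      have h2 := hnorm2 D hDmem 0 1 le_rfl zero_le_one
      have h3 : ‖D‖ ^ 2 ≤ 2 ^ 2 := by
        rw [zero_smul, zero_add, one_smul] at h2
        linarith
      exact le_of_sq_le_sq h3 (by norm_num)
    have hxD : -(2 * η) ≤ x D := by
      have h2 := hsmall D (hprop D hDmem).1
      have h3 : |x D| ≤ 2 * η := by
        calc |x D| ≤ η * ‖D‖ := h2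
          _ ≤ η * 2 := by gcongr
          _ = 2 * η := by ring
      exact (abs_le.1 h3).1
    refine le_trans ?_ (duality_step (x := x) (y := y) (σ := σ) (t := t) hβpos hβ1
      (hnorm2 D hDmem) hyc)
    have h18 : min t 1 * t / 512 = β * t / 16 := by rw [hβ]; ring
    rw [h18]
    exact numeric_step hβpos hβt hβ1 hηpos hη1 hxc hxD hσ
  have hsum : 1 - η ≤ y D₁ - y D₂ := by rw [hyD, ← hy1]; exact hyd
  by_cases hcase : 1 / 4 ≤ y D₁
  · have := hfin D₁ (by simp) 1 (by rw [one_mul]; exact hcase)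
    rw [one_mul] at this
    exact this.trans (le_max_left _ _)
  · push Not at hcase
    have h1 : 1 / 4 ≤ (-1) * y D₂ := by linarith
    have := hfin D₂ (by simp) (-1) h1
    have h2 : x + (-1 * t) • y = x - t • y := by module
    rw [h2] at this
    exact this.trans (le_max_right _ _)

end Vale.Agent.P069
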