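import Mathlib
import Vale.Agent.P069.AmucIneq

/-! No equivalent norm on `X` is asymptotically uniformly convex. -/

open NormedSpace
open scoped ENNReal

namespace Vale.Agent.P069

/-- Coordinate functional at the node `l` of the `n`-th tree. -/
noncomputable def coordX (n : ℕ) (l : List ℕ) : X :=
  LinearMap.mkContinuous
    { toFun := fun c : Z => toH (c n) l
      map_add' := fun c d => by rw [lp.coeFn_add, Pi.add_apply, map_add]; rfl
      map_smul' := fun r c => by
        rw [lp.coeFn_smul, Pi.smul_apply, map_smul]; rfl } 1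
    (fun c => by
      rw [one_mul]
      exact ((abs_apply_le _ l).trans (norm_toH_le _)).trans
        (lp.norm_apply_le_norm (by norm_num) c n))

theorem coordX_apply (n : ℕ) (l : List ℕ) (c : Z) : coordX n l c = toH (c n) l := rfl

/-- Path functional: sum of the coordinates along the branch from the root to `l`. -/
noncomputable def pathX (n : ℕ) : List ℕ → X
  | [] => coordX n []
  | (a :: l) => coordX n (a :: l) + pathX n l

theorem pathX_apply (n : ℕ) (l : List ℕ) (c : Z) : pathX n l c = psum (toH (c n)) l := by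
  induction l with
  | nil => rfl
  | cons a l ih =>
    simp only [pathX, psum]
    rw [add_apply, ih, coordX_apply]

theorem norm_pathX_le (n : ℕ) (l : List ℕ) (hl : l.length ≤ n) : ‖pathX n l‖ ≤ 1 := by
  refine ContinuousLinearMap.opNorm_le_bound _ zero_le_one fun c => ?_
  rw [one_mul, pathX_apply, Real.norm_eq_abs]
  exact (abs_psum_le_norm _ l hl).trans (lp.norm_apply_le_norm (by norm_num) c n)

theorem psum_single (l m : List ℕ) :
    psum (⇑(lp.single 2 l (1 : ℝ) : H)) m = 0 ∨ psum (⇑(lp.single 2 l (1 : ℝ) : H)) m = 1 := by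
  have hlen : ∀ m : List ℕ, m.length < l.length → psum (⇑(lp.single 2 l (1 : ℝ) : H)) m = 0 := by
    intro m
    induction m with
    | nil =>
      intro h
      simp only [psum, lp.single_apply]
      exact Pi.single_eq_of_ne (fun h' => by rw [← h'] at h; exact lt_irrefl _ h) _
    | cons a m ih =>
      intro h
      simp only [psum, lp.single_apply]
      rw [ih (by simp at h; omega)]
      rw [Pi.single_eq_of_ne (fun h' => by rw [← h'] at h; exact lt_irrefl _ h), add_zero]
  induction m with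
  | nil =>
    simp only [psum, lp.single_apply]
    by_cases h : ([] : List ℕ) = l
    · right; subst h; exact Pi.single_eq_same _ _
    · left; exact Pi.single_eq_of_ne h _
  | cons a m ih =>
    by_cases h : a :: m = l
    · right
      have h1 := hlen m (by rw [← h]; simp)
      simp only [psum]
      rw [h1, lp.single_apply, ← h, Pi.single_eq_same, add_zero]
    · simp only [psum]
      rw [lp.single_apply, Pi.single_eq_of_ne h, zero_add]
      exact ih

theorem norm_unitZ (n : ℕ) (l : List ℕ) : ‖unitZ n l‖ ≤ 1 := by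
  unfold unitZ
  rw [lp.norm_single (by norm_num)]
  refine norm_Y_le _ zero_le_one ?_ ?_
  · rw [toH_ofH, lp.norm_single (by norm_num)]; simp
  · intro m _
    rw [toH_ofH]
    rcases psum_single l m with h | h
    · rw [h]; simp
    · rw [h]; simp

theorem coordX_unitZ (n : ℕ) (l : List ℕ) : coordX n l (unitZ n l) = 1 := by
  rw [coordX_apply, unitZ, lp.single_apply_self, toH_ofH, lp.single_apply_self]

theorem one_le_norm_coordX (n : ℕ) (l : List ℕ) : 1 ≤ ‖coordX n l‖ := by
  calc (1 : ℝ) = ‖coordX n l (unitZ n l)‖ := by rw [coordX_unitZ]; simp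
    _ ≤ ‖coordX n l‖ * ‖unitZ n l‖ := ContinuousLinearMap.le_opNorm _ _
    _ ≤ ‖coordX n l‖ * 1 := by gcongr; exact norm_unitZ n l
    _ = ‖coordX n l‖ := mul_one _

/-- The children coordinate functionals satisfy an upper `ℓ²` estimate. -/
theorem norm_sum_coordX_le (n : ℕ) (l : List ℕ) (J : Finset ℕ) (v : ℕ → ℝ) :
    ‖∑ a ∈ J, v a • coordX n (a :: l)‖ ≤ Real.sqrt (∑ a ∈ J, v a ^ 2) := by
  refine ContinuousLinearMap.opNorm_le_bound _ (Real.sqrt_nonneg _) fun c => ?_
  have h1 : (∑ a ∈ J, v a • coordX n (a :: l)) c = ∑ a ∈ J, v a * toH (c n) (a :: l) := by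
    simp only [FunLike.coe_sum, Finset.sum_apply, FunLike.coe_smul, Pi.smul_apply, smul_eq_mul,
      coordX_apply]
  rw [h1, Real.norm_eq_abs]
  calc |∑ a ∈ J, v a * toH (c n) (a :: l)|
      ≤ Real.sqrt (∑ a ∈ J, v a ^ 2) * Real.sqrt (∑ a ∈ J, (toH (c n) (a :: l)) ^ 2) := by
        refine abs_le.2 ⟨?_, Real.sum_mul_le_sqrt_mul_sqrt _ _ _⟩
        have := Real.sum_mul_le_sqrt_mul_sqrt J (fun a => -v a) (fun a => toH (c n) (a :: l))
        simp only [neg_mul, Finset.sum_neg_distrib, neg_sq] at this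
        linarith
    _ ≤ Real.sqrt (∑ a ∈ J, v a ^ 2) * ‖c‖ := by
        gcongr
        rw [Real.sqrt_le_left (norm_nonneg _)]
        have h2 := norm_H_sq (toH (c n))
        have h3 : ∑ a ∈ J, (toH (c n) (a :: l)) ^ 2 ≤ ‖toH (c n)‖ ^ 2 := by
          have h4 : ∑ m ∈ J.image (fun a => a :: l), (toH (c n) m) ^ 2 ≤ ‖toH (c n)‖ ^ 2 :=
            sum_le_hasSum _ (fun m _ => sq_nonneg _) h2
          rwa [Finset.sum_image (by
            intro a _ b _ h
            exact (List.cons.inj h).1)] at h4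
        refine h3.trans ?_
        have h5 : ‖toH (c n)‖ ≤ ‖c‖ :=
          (norm_toH_le _).trans (lp.norm_apply_le_norm (by norm_num) c n)
        gcongr

/-- The children coordinate functionals are weakly null. -/
theorem tendsto_coordX (n : ℕ) (l : List ℕ) (φ : StrongDual ℝ X) :
    Filter.Tendsto (fun a : ℕ => φ (coordX n (a :: l))) Filter.atTop (nhds 0) := by
  have hbound : ∀ J : Finset ℕ, ∑ a ∈ J, (φ (coordX n (a :: l))) ^ 2 ≤ ‖φ‖ ^ 2 := by
    intro J
    set S : ℝ := ∑ a ∈ J, (φ (coordX n (a :: l))) ^ 2 with hS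
    have hSnn : 0 ≤ S := Finset.sum_nonneg fun i _ => sq_nonneg _
    have h1 : φ (∑ a ∈ J, φ (coordX n (a :: l)) • coordX n (a :: l)) = S := by
      rw [map_sum, hS]
      refine Finset.sum_congr rfl fun a _ => ?_
      rw [map_smul, smul_eq_mul, sq]
    have h2 := norm_sum_coordX_le n l J (fun a => φ (coordX n (a :: l)))
    have h4 : S ≤ ‖φ‖ * Real.sqrt S := by
      calc S = φ (∑ a ∈ J, φ (coordX n (a :: l)) • coordX n (a :: l)) := h1.symm
        _ ≤ ‖φ (∑ a ∈ J, φ (coordX n (a :: l)) • coordX n (a :: l))‖ := Real.le_norm_self _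
        _ ≤ ‖φ‖ * ‖∑ a ∈ J, φ (coordX n (a :: l)) • coordX n (a :: l)‖ := φ.le_opNorm _
        _ ≤ ‖φ‖ * Real.sqrt S := by gcongr
    by_cases hS0 : S = 0
    · rw [hS0]; positivity
    · have hSpos : 0 < S := lt_of_le_of_ne hSnn (Ne.symm hS0)
      have hsq : Real.sqrt S * Real.sqrt S = S := Real.mul_self_sqrt hSnn
      have hsqpos : 0 < Real.sqrt S := Real.sqrt_pos.2 hSpos
      have h5 : Real.sqrt S ≤ ‖φ‖ := by
        have : Real.sqrt S * Real.sqrt S ≤ ‖φ‖ * Real.sqrt S := by rw [hsq]; exact h4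
        exact le_of_mul_le_mul_right this hsqpos
      calc S = Real.sqrt S * Real.sqrt S := hsq.symm
        _ ≤ ‖φ‖ * ‖φ‖ := by gcongr
        _ = ‖φ‖ ^ 2 := by ring
  have hsum : Summable fun a : ℕ => (φ (coordX n (a :: l))) ^ 2 :=
    summable_of_sum_le (fun i => sq_nonneg _) hbound
  have h0 := hsum.tendsto_atTop_zero
  have h1 : Filter.Tendsto (fun a : ℕ => |φ (coordX n (a :: l))|) Filter.atTop (nhds 0) := by
    have := (Real.continuous_sqrt.tendsto 0).comp h0
    simp only [Real.sqrt_zero] at this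
    refine this.congr fun a => ?_
    simp [Function.comp, Real.sqrt_sq_eq_abs]
  exact (tendsto_zero_iff_abs_tendsto_zero _).2 h1

/-- A weakly null sequence gets close to every closed finite codimensional subspace. -/
theorem exists_close_of_weakly_null {E : Type*} [NormedAddCommGroup E] [NormedSpace ℝ E]
    (e : ℕ → E) (he : ∀ φ : StrongDual ℝ E,
      Filter.Tendsto (fun a : ℕ => φ (e a)) Filter.atTop (nhds 0))
    (F : Submodule ℝ E) (hF : IsClosed (F : Set E))
    (hfin : FiniteDimensional ℝ (E ⧸ F)) {κ : ℝ} (hκ : 0 < κ) :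
    ∃ (a : ℕ) (y : E), y ∈ F ∧ ‖e a - y‖ ≤ κ := by
  obtain ⟨f, hf⟩ := Submodule.ClosedComplemented.of_finiteDimensional_quotient hF
  -- `T = id - projection` has finite dimensional range
  let T : E →L[ℝ] E := ContinuousLinearMap.id ℝ E - F.subtypeL.comp f
  have hTF : ∀ x ∈ F, T x = 0 := by
    intro x hx
    have := hf ⟨x, hx⟩
    simp only [T, sub_apply, ContinuousLinearMap.comp_apply, ContinuousLinearMap.id_apply]
    rw [this]
    simp
  have hT : ∀ x, x - (f x : E) = T x := fun x => rfl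
  -- finite dimensional range
  obtain ⟨W, hW, hWT⟩ : ∃ W : Submodule ℝ E, FiniteDimensional ℝ W ∧ ∀ x, T x ∈ W := by
    refine ⟨LinearMap.range (T : E →ₗ[ℝ] E), ?_, fun x => LinearMap.mem_range_self _ x⟩
    have hle : F ≤ LinearMap.ker (T : E →ₗ[ℝ] E) := fun x hx => hTF x hx
    have h1 : LinearMap.range (T : E →ₗ[ℝ] E)
        = LinearMap.range (F.liftQ (T : E →ₗ[ℝ] E) hle) := by
      rw [Submodule.range_liftQ]
    rw [h1]
    infer_instance
  let T' : E →L[ℝ] W := T.codRestrict W hWT
  have htend : Filter.Tendsto (fun a : ℕ => T' (e a)) Filter.atTop (nhds 0) := by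
    let b := Module.finBasis ℝ W
    let g := b.equivFunL
    have h2 : Filter.Tendsto (fun a : ℕ => g (T' (e a))) Filter.atTop
        (nhds 0) := by
      rw [tendsto_pi_nhds]
      intro i
      let φ : StrongDual ℝ E :=
        ((ContinuousLinearMap.proj (R := ℝ) (φ := fun _ : Fin (Module.finrank ℝ W) => ℝ) i).comp
          (g : W →L[ℝ] (Fin (Module.finrank ℝ W) → ℝ))).comp T'
      exact he φ
    have h3 := (g.symm.continuous.tendsto 0).comp h2
    simpa [Function.comp_def] using h3
  have hev : ∀ᶠ a : ℕ in Filter.atTop, ‖T' (e a)‖ < κ := by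
    have := htend.norm
    rw [norm_zero] at this
    exact (tendsto_order.1 this).2 _ hκ
  obtain ⟨a, ha⟩ := hev.exists
  refine ⟨a, f (e a), (f (e a)).2, ?_⟩
  rw [hT]
  exact ha.le

/-- Children of a node can be approximated by elements of a closed finite codimensional
subspace. -/
theorem exists_child_close (F : Submodule ℝ X) (hF : IsClosed (F : Set X))
    (hfin : FiniteDimensional ℝ (X ⧸ F)) (n : ℕ) (l : List ℕ) {κ : ℝ} (hκ : 0 < κ) :
    ∃ (a : ℕ) (y : X), y ∈ F ∧ ‖coordX n (a :: l) - y‖ ≤ κ :=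
  exists_close_of_weakly_null (fun a => coordX n (a :: l)) (tendsto_coordX n l) F hF hfin hκ

/-- One growth step for a seminorm, by convexity. -/
theorem growth_step {E : Type*} [AddCommGroup E] [Module ℝ E] (N : Seminorm ℝ E)
    {p y : E} {m t₀ δ : ℝ} (hm : N p = m) (hmpos : 0 < m) (hNy : 0 < N y)
    (ht₀ : 0 < t₀) (hτ : t₀ * m ≤ N y) (hδ : 0 < δ)
    (hauc : 1 + δ ≤ N (m⁻¹ • p + t₀ • ((N y)⁻¹ • y))) :
    m * (1 + δ) ≤ N (p + y) := by
  set τ : ℝ := N y / m with hτdef
  have hτpos : 0 < τ := by positivity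
  have hτt : t₀ ≤ τ := by rw [hτdef, le_div_iff₀ hmpos]; exact hτ
  have hmn : m ≠ 0 := hmpos.ne'
  have hNyn : N y ≠ 0 := hNy.ne'
  have h5 : t₀ / τ ≤ 1 := by rw [div_le_one hτpos]; exact hτt
  have h6 : 0 < t₀ / τ := by positivity
  have h1 : m⁻¹ • p + t₀ • ((N y)⁻¹ • y) =
      ((1 - t₀ / τ) * m⁻¹) • p + ((t₀ / τ) * m⁻¹) • (p + y) := by
    have h2 : t₀ * (N y)⁻¹ = (t₀ / τ) * m⁻¹ := by
      rw [hτdef]; field_simp
    rw [smul_smul, h2]
    module
  have h3 : 0 ≤ (1 - t₀ / τ) * m⁻¹ := by
    have : 0 ≤ 1 - t₀ / τ := by linarith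
    positivity
  have h4 : 0 ≤ (t₀ / τ) * m⁻¹ := by positivity
  have h7 : N (m⁻¹ • p + t₀ • ((N y)⁻¹ • y)) ≤
      (1 - t₀ / τ) + (t₀ / τ) * (m⁻¹ * N (p + y)) := by
    rw [h1]
    refine (map_add_le_add N _ _).trans ?_
    rw [map_smul_eq_mul, map_smul_eq_mul, Real.norm_eq_abs, Real.norm_eq_abs,
      abs_of_nonneg h3, abs_of_nonneg h4, hm, mul_assoc, inv_mul_cancel₀ hmn, mul_one,
      mul_assoc]
  have h8 : 1 + δ ≤ m⁻¹ * N (p + y) := by
    by_contra hcon
    push Not at hcon
    have h9 : (t₀ / τ) * (m⁻¹ * N (p + y)) < (t₀ / τ) * (1 + δ) := by gcongr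
    nlinarith
  calc m * (1 + δ) ≤ m * (m⁻¹ * N (p + y)) := by gcongr
    _ = N (p + y) := by rw [← mul_assoc, mul_inv_cancel₀ hmn, one_mul]

/-- Growth along a branch for an equivalent AUC norm. -/
theorem no_auc (N : Seminorm ℝ X) {a b : ℝ} (ha : 0 < a)
    (hab : ∀ x : X, a * ‖x‖ ≤ N x ∧ N x ≤ b * ‖x‖)
    (hauc : ∀ t : ℝ, 0 < t → ∃ δ : ℝ, 0 < δ ∧ ∀ x : X, N x = 1 →
      ∃ F : Submodule ℝ X, IsClosed (F : Set X) ∧ FiniteDimensional ℝ (X ⧸ F) ∧
        ∀ y ∈ F, N y = 1 → 1 + δ ≤ N (x + t • y)) : False := by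
  have hb : 0 < b := by
    have h1 := hab (coordX 0 [])
    have h2 := one_le_norm_coordX 0 []
    have h3 : 0 < b * ‖coordX 0 []‖ := by
      have : 0 < a * ‖coordX 0 []‖ := by positivity
      linarith
    exact pos_of_mul_pos_left h3 (norm_nonneg _)
  obtain ⟨δ, hδ, hauc'⟩ := hauc (a / (2 * b)) (by positivity)
  set t₀ : ℝ := a / (2 * b) with ht₀
  have ht₀pos : 0 < t₀ := by positivity
  have hgrow : ∀ n k : ℕ, k ≤ n → ∃ l : List ℕ, l.length = k ∧
      a * (1 + δ / 2) ^ k ≤ N (pathX n l) := by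
    intro n k
    induction k with
    | zero =>
      intro _
      refine ⟨[], rfl, ?_⟩
      rw [pow_zero, mul_one]
      have h1 := (hab (pathX n [])).1
      have h2 : 1 ≤ ‖pathX n []‖ := one_le_norm_coordX n []
      nlinarith
    | succ k ih =>
      intro hk
      obtain ⟨l, hl, hgl⟩ := ih (by omega)
      set m : ℝ := N (pathX n l) with hm
      have hpow : 1 ≤ (1 + δ / 2) ^ k := one_le_pow₀ (by linarith)
      have hma : a ≤ m := by
        calc a = a * 1 := (mul_one _).symm
          _ ≤ a * (1 + δ / 2) ^ k := by gcongr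
          _ ≤ m := hgl
      have hmpos : 0 < m := lt_of_lt_of_le ha hma
      have hmb : m ≤ b := by
        have h1 := (hab (pathX n l)).2
        have h2 := norm_pathX_le n l (by omega)
        calc m ≤ b * ‖pathX n l‖ := h1
          _ ≤ b * 1 := by gcongr
          _ = b := mul_one _
      -- normalised vector
      have hx1 : N (m⁻¹ • pathX n l) = 1 := by
        rw [map_smul_eq_mul, ← hm, norm_inv, Real.norm_eq_abs, abs_of_pos hmpos,
          inv_mul_cancel₀ hmpos.ne']
      obtain ⟨F, hFc, hFf, hFy⟩ := hauc' _ hx1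
      set κ : ℝ := min (a / (2 * b)) (a * δ / (2 * b)) with hκ
      have hκpos : 0 < κ := by positivity
      obtain ⟨j, y, hyF, hyκ⟩ := exists_child_close F hFc hFf n l hκpos
      have hκ1 : b * κ ≤ a / 2 := by
        calc b * κ ≤ b * (a / (2 * b)) := by gcongr; exact min_le_left _ _
          _ = a / 2 := by field_simp
      have hκ2 : b * κ ≤ a * δ / 2 := by
        calc b * κ ≤ b * (a * δ / (2 * b)) := by gcongr; exact min_le_right _ _
          _ = a * δ / 2 := by field_simp
      have hdiff : N (coordX n (j :: l) - y) ≤ b * κ := by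
        refine (hab _).2.trans ?_
        gcongr
      have hNy : a / 2 ≤ N y := by
        have h1 : N (coordX n (j :: l)) ≤ N (coordX n (j :: l) - y) + N y := by
          have := map_add_le_add N (coordX n (j :: l) - y) y
          rwa [sub_add_cancel] at this
        have h2 : a ≤ N (coordX n (j :: l)) := by
          have h3 := (hab (coordX n (j :: l))).1
          have h4 := one_le_norm_coordX n (j :: l)
          nlinarith
        linarith
      have hNypos : 0 < N y := by linarith
      -- scaled direction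
      have hy1 : N ((N y)⁻¹ • y) = 1 := by
        rw [map_smul_eq_mul, norm_inv, Real.norm_eq_abs, abs_of_pos hNypos,
          inv_mul_cancel₀ hNypos.ne']
      have hauc1 := hFy _ (F.smul_mem (N y)⁻¹ hyF) hy1
      -- convexity
      have hscale : m * (1 + δ) ≤ N (pathX n l + y) := by
        refine growth_step N hm.symm hmpos hNypos ht₀pos ?_ hδ hauc1
        have h1 : t₀ * m ≤ t₀ * b := by gcongr
        have h2 : t₀ * b = a / 2 := by rw [ht₀]; field_simp
        linarith
      refine ⟨j :: l, by simp [hl], ?_⟩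
      have h8 : N (pathX n l + y) ≤ N (pathX n (j :: l)) + b * κ := by
        have h9 : pathX n l + y = pathX n (j :: l) - (coordX n (j :: l) - y) := by
          simp only [pathX]; abel
        rw [h9]
        refine (map_sub_le_add N _ _).trans ?_
        gcongr
      have h10 : m * (1 + δ / 2) ≤ N (pathX n (j :: l)) := by
        have : a * δ / 2 ≤ m * δ / 2 := by gcongr
        nlinarith
      calc a * (1 + δ / 2) ^ (k + 1) = a * (1 + δ / 2) ^ k * (1 + δ / 2) := by ring
        _ ≤ m * (1 + δ / 2) := by gcongr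
        _ ≤ _ := h10
  -- contradiction
  obtain ⟨n, hn⟩ := pow_unbounded_of_one_lt (b / a) (show (1 : ℝ) < 1 + δ / 2 by linarith)
  obtain ⟨l, hl, hgl⟩ := hgrow n n le_rfl
  have h1 : N (pathX n l) ≤ b := by
    have h2 := norm_pathX_le n l (by omega)
    calc N (pathX n l) ≤ b * ‖pathX n l‖ := (hab _).2
      _ ≤ b * 1 := by gcongr
      _ = b := mul_one _
  rw [div_lt_iff₀ ha] at hn
  linarith

end Vale.Agent.P069
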