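import Mathlib
import Vale.Agent.P069.NonAuc

/-! Separability of `X`. -/

open NormedSpace
open scoped ENNReal

namespace Vale.Agent.P069

theorem separable_X : TopologicalSpace.SeparableSpace X := by
  let S : Set X := Set.range fun p : ℕ × List ℕ => coordX p.1 p.2
  have hS : TopologicalSpace.IsSeparable S := (Set.countable_range _).isSeparable
  have hspan : TopologicalSpace.IsSeparable (Submodule.span ℝ S : Set X) := hS.span
  have hdense : closure (Submodule.span ℝ S : Set X) = Set.univ := by
    rw [Set.eq_univ_iff_forall]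
    intro x
    rw [Metric.mem_closure_iff]
    intro ε hε
    obtain ⟨s, A, hA, hsmall⟩ := exists_finite_small x (η := ε / 4) (by positivity)
    refine ⟨∑ n ∈ s, ∑ l ∈ A, x (unitZ n l) • coordX n l, ?_, ?_⟩
    · refine Submodule.sum_mem _ fun n _ => Submodule.sum_mem _ fun l _ => ?_
      exact Submodule.smul_mem _ _ (Submodule.subset_span ⟨(n, l), rfl⟩)
    · rw [dist_eq_norm]
      have h1 : ‖x - ∑ n ∈ s, ∑ l ∈ A, x (unitZ n l) • coordX n l‖ ≤ ε / 2 := by
        refine ContinuousLinearMap.opNorm_le_bound _ (by positivity) fun c => ?_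
        have h2 : (x - ∑ n ∈ s, ∑ l ∈ A, x (unitZ n l) • coordX n l) c
            = x (c - cutZ s A hA c) := by
          rw [cutZ_eq_sum, map_sub, sub_apply]
          congr 1
          simp only [FunLike.coe_sum, Finset.sum_apply, FunLike.coe_smul, Pi.smul_apply,
            smul_eq_mul, coordX_apply, map_sum, map_smul]
          refine Finset.sum_congr rfl fun n _ => Finset.sum_congr rfl fun l _ => mul_comm _ _
        rw [h2, Real.norm_eq_abs]
        refine (hsmall _ ?_).trans ?_
        · intro n hn l hl
          rw [lp.coeFn_sub, Pi.sub_apply, cutZ_apply, map_sub, toH_ofH, lp.coeFn_sub,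
            Pi.sub_apply, cut_apply_mem _ (show l ∈ sec s A n from ⟨hn, hl⟩), sub_self]
        · have h3 : ‖c - cutZ s A hA c‖ ≤ 2 * ‖c‖ := by
            have h4 := norm_sub_le c (cutZ s A hA c)
            have h5 := norm_cutZ_le s A hA c
            linarith
          calc ε / 4 * ‖c - cutZ s A hA c‖ ≤ ε / 4 * (2 * ‖c‖) := by gcongr
            _ = ε / 2 * ‖c‖ := by ring
      linarith
  have huniv : TopologicalSpace.IsSeparable (Set.univ : Set X) := by
    rw [← hdense]; exact hspan.closure
  exact TopologicalSpace.isSeparable_univ_iff.1 huniv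

end Vale.Agent.P069
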